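import Vale.Agent.P030.H60.ExV4
import Vale.Agent.P030.H954.PolyW
import Vale.Agent.P030.H462.FhC3
import Vale.Agent.P030.H639.Asym

/-!
# P030, V-layer: `ExistsV`

The eight global flat vectors: components `0 .. 5` = polylogarithms (H954), components 6 and 7 =
`(1-u) F`, `(1-u) θ F` with `F` = `F̂` (H462, H639), `0`, or the branches `A0`, `A3` of the
`K`-equation (H810, H3).
-/

open PowerSeries Metric Set Filter Topology

namespace Vale.Agent.P030.H60.ExV

open Vale.Agent.P030.T Vale.Agent.P030.H462 Vale.Agent.P030.AR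

noncomputable section

theorem isFh : IsFh Fh := by
  have hup : ∀ u ∈ Up, u ∈ dmain := fun u hu => mem_dmain_of_im (ne_of_gt hu)
  refine ⟨fun u hu => ?_, fun u _ h => ?_, fun u _ h => ?_, fun v h hv => ?_, fun t h ht => ?_⟩
  · exact (differentiableOn_Fh.differentiableAt
      (isOpen_dmain.mem_nhds (hup u hu))).differentiableWithinAt
  · rw [Fh_eq_c0 h]; rfl
  · rw [Fh_eq_c1 h]; rfl
  · rw [Fh_eq_c2 h (nslit_of_im (ne_of_lt hv))]; rfl
  · rw [Fh_eq_c3 H639.dbl_asym h (nslit_of_im (ne_of_gt ht))]; rfl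

/-- the eight global flat vectors -/
def VV (i : Fin 8) (u : ℂ) (j : Fin 8) : ℂ :=
  if (j : ℕ) < 6 then H954.PV i u j
  else if j = 6 then (1 - u) * Fv Fh i u
  else (1 - u) * (u * deriv (Fv Fh i) u)

theorem VV_low (i : Fin 8) (u : ℂ) (j : Fin 8) (hj : (j : ℕ) < 6) : VV i u j = H954.PV i u j :=
  if_pos hj

theorem VV_six (i : Fin 8) (u : ℂ) : VV i u 6 = (1 - u) * Fv Fh i u := by
  rw [VV, if_neg (by decide), if_pos rfl]

theorem VV_seven (i : Fin 8) (u : ℂ) : VV i u 7 = (1 - u) * (u * deriv (Fv Fh i) u) := by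
  rw [VV, if_neg (by decide), if_neg (by decide)]

theorem cases8 (j : Fin 8) : (j : ℕ) < 6 ∨ j = 6 ∨ j = 7 := by
  revert j; decide

/-- the components of the eight vectors are holomorphic on the upper half plane and have the
expansions of `AR/Vec.lean` at the four cusps -/
theorem isV_VV : IsV VV := by
  refine ⟨fun i j => ?_, fun u hu h i => ?_, fun u hu h i => ?_, fun u hu h i => ?_,
    fun u hu h i => ?_⟩
  · have hd : DifferentiableOn ℂ (Fv Fh i) Up := fun u hu =>
      (diff_Fv isFh i hu).differentiableWithinAt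
    have h1 : DifferentiableOn ℂ (fun u : ℂ => 1 - u) Up := by fun_prop
    have h2 : DifferentiableOn ℂ (fun u : ℂ => u) Up := by fun_prop
    rcases cases8 j with hj | rfl | rfl
    · exact (H954.polyV_hol i j).congr fun u _ => VV_low i u j hj
    · exact (h1.mul hd).congr fun u _ => VV_six i u
    · exact (h1.mul (h2.mul (hd.deriv isOpen_Up))).congr fun u _ => VV_seven i u
  · funext j
    rcases cases8 j with hj | rfl | rfl
    · rw [VV_low i u j hj, H954.PV_at0 h i j hj]
    · rw [VV_six, f0 isFh hu h, gl0_6 h]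
    · rw [VV_seven, g0 isFh hu h, gl0_7 h]
  · funext j
    rcases cases8 j with hj | rfl | rfl
    · rw [VV_low i u j hj, H954.PV_at1 hu h i j hj]
    · rw [VV_six, f1 isFh hu h, gl1_6]
    · rw [VV_seven, g1 isFh hu h, gl1_7 h]
  · have hn : ‖1 / u‖ < 1 := by
      rw [one_div, norm_inv]
      exact inv_lt_one_of_one_lt₀ h
    funext j
    rcases cases8 j with hj | rfl | rfl
    · rw [VV_low i u j hj, H954.PV_at2 hu h i j hj]
    · rw [VV_six, f2 isFh hu h, gl2_6 hn]
    · rw [VV_seven, g2 isFh hu h, gl2_7 hn]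
  · funext j
    rcases cases8 j with hj | rfl | rfl
    · rw [VV_low i u j hj, H954.PV_at3 hu h i j hj]
    · rw [VV_six, f3 isFh hu h, gl3_6 h]
    · rw [VV_seven, g3 isFh hu h, gl3_7 h]

/-- **the target of the function layer** -/
theorem existsV : ExistsV := ⟨VV, isV_VV⟩

end

end Vale.Agent.P030.H60.ExV
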