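import Vale.Agent.P030.AR.Vec
import Vale.Agent.P030.H462.SolSer

/-!
# P030, V-layer: the last two coordinates of the local expansions, in closed form
-/

open PowerSeries Metric Set Filter Topology

namespace Vale.Agent.P030.H60.ExV

open Vale.Agent.P030.T Vale.Agent.P030.H462 Vale.Agent.P030.AR

theorem evq_eq (f : ℚ⟦X⟧) (t : ℂ) : evq f t = evQ f t := by
  rw [evq, evQ, Subsingleton.elim (Rat.castHom ℂ) (algebraMap ℚ ℂ)]

/-- the two definitions of `R` agree -/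
theorem cR_eq : ∀ n : ℕ, AR.cR n = H462.cR n
  | 0 => by rw [AR.cR, H462.cR, cRf]
  | 1 => by
    have h1 : coeff 1 serM = 0 := by rw [serM, coeff_mk, H605.serK_one, zero_mul]
    rw [AR.cR, H462.cR, cRf, serRr]
    simp only [sc, map_sub, map_add, H605.coeff_X_sq_mul_one, H605.coeff_C_mul', H605.coeff_th,
      H605.serK_one, h1]
    simp
  | n + 2 => by
    have ih := cR_eq n
    rw [AR.cR, ih]
    simp only [H462.cR, cRf]
    congr 1
    rw [serRr]
    simp only [sc, map_sub, map_add, H605.coeff_X_sq_mul, H605.coeff_C_mul', H605.coeff_th]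
    have h1 : ¬ (n + 2 = 0) := by omega
    rw [coeff_C, if_neg h1]
    push_cast
    ring

theorem serR_eq : AR.serR = H462.serR := by
  ext n
  rw [AR.serR, H462.serR, coeff_mk, coeff_mk, cR_eq]

section eval

variable {s : ℚ⟦X⟧} {t : ℂ}

theorem evq_zero : evq 0 t = 0 := by rw [evq_eq]; exact ev_zero t

theorem evq_one_sub (hs : PQ s) (ht : ‖t‖ < 1) : evq ((1 - X) * s) t = (1 - t) * evQ s t := by
  rw [evq_eq, evQ, ev_mul (PG.one.sub PG.varX) hs ht, ev_sub PG.one PG.varX ht, ev_one, ev_X]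

theorem evq_one_sub_th (hs : PQ s) (ht : ‖t‖ < 1) :
    evq ((1 - X) * th s) t = (1 - t) * (t * e1 s t) := by
  rw [evq_one_sub (pq_th hs) ht, H605.th_eq, evQ, ev_mul PG.varX hs.deriv ht, ev_X]
  rfl

theorem evq_X (hs : PQ s) (ht : ‖t‖ < 1) : evq (X * s) t = t * evQ s t := by
  rw [evq_eq, evQ, ev_mul PG.varX hs ht, ev_X]

theorem evq_neg (f : ℚ⟦X⟧) : evq (-f) t = -evq f t := by
  rw [evq_eq, evq_eq]; exact ev_neg f t

theorem evq_add {f g : ℚ⟦X⟧} (hf : PQ f) (hg : PQ g) (ht : ‖t‖ < 1) :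
    evq (f + g) t = evq f t + evq g t := by
  rw [evq_eq, evq_eq, evq_eq]; exact ev_add hf hg ht

theorem evq_sc (q : ℚ) {f : ℚ⟦X⟧} (hf : PQ f) (ht : ‖t‖ < 1) : evq (sc q f) t = (q : ℂ) * evq f t := by
  rw [evq_eq, evq_eq, sc, evQ, ev_mul (PG.const q) hf ht, ev_C, eq_ratCast]

theorem evq_tw (hs : PQ s) (ht : ‖t‖ < 1) :
    evq (tw s) t = (1 + t) / 2 * ((1 - t) * e1 s t - evQ s t) := by
  have h1 : PQ ((1 - X) * s) := (PG.one.sub PG.varX).mul hs
  have h2 : dd ((1 - X) * s) = (1 - X) * d⁄dX ℚ s - s := by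
    rw [H605.dd_eq]
    simp only [Derivation.leibniz, smul_eq_mul, map_sub, Derivation.map_one_eq_zero,
      derivative_X]
    ring
  rw [tw, evq_sc _ ((PG.one.add PG.varX).mul (pq_dd h1)) ht, evq_eq, evQ,
    ev_mul (PG.one.add PG.varX) (pq_dd h1) ht, ev_add PG.one PG.varX ht, ev_one, ev_X, h2,
    ev_sub ((PG.one.sub PG.varX).mul hs.deriv) hs ht, ev_mul (PG.one.sub PG.varX) hs.deriv ht,
    ev_sub PG.one PG.varX ht, ev_one, ev_X]
  push_cast
  rw [e1, evQ]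
  ring

theorem evq_ddX (hs : PQ s) (ht : ‖t‖ < 1) :
    evq (dd (X * s)) t = evQ s t + t * e1 s t := by
  have h2 : dd (X * s) = s + X * d⁄dX ℚ s := by
    rw [H605.dd_eq]
    exact D_X_mul s
  rw [evq_eq, h2, evQ, ev_add hs (PG.varX.mul hs.deriv) ht, ev_mul PG.varX hs.deriv ht, ev_X]
  rfl

theorem evq_one_sub' (hs : PQ s) (ht : ‖t‖ < 1) : evq ((1 - X) * s) t = (1 - t) * evq s t := by
  rw [evq_one_sub hs ht, evq_eq]

theorem evq_X' (hs : PQ s) (ht : ‖t‖ < 1) : evq (X * s) t = t * evq s t := by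
  rw [evq_X hs ht, evq_eq]

theorem evq_one_sub_sq (hs : PQ s) (ht : ‖t‖ < 1) :
    evq ((1 - X ^ 2) * s) t = (1 - t ^ 2) * evQ s t := by
  rw [evq_eq, evQ, ev_mul (PG.one.sub (PG.varX.pow 2)) hs ht, ev_sub PG.one (PG.varX.pow 2) ht,
    ev_one, ev_pow PG.varX 2 ht, ev_X]

end eval

end Vale.Agent.P030.H60.ExV
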