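import Vale.Agent.P030.H60.ExV2

/-!
# P030, V-layer: the derivation `(1-u) θ F` in the four local parameters
-/

open PowerSeries Metric Set Filter Topology

namespace Vale.Agent.P030.H60.ExV

open Vale.Agent.P030.T Vale.Agent.P030.H462 Vale.Agent.P030.AR

noncomputable section

/-! ### change of the parameter -/

theorem derG {F R : ℂ → ℂ} {u r' : ℂ} (hu : 1 - u ≠ 0) (hF : DifferentiableAt ℂ F u)
    (h : ∀ᶠ w in 𝓝 u, (1 - w) * F w = R w) (hR : HasDerivAt R r' u) :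
    (1 - u) * (u * deriv F u) = u * r' + u / (1 - u) * R u := by
  have h1 : HasDerivAt (fun w => (1 - w) * F w) (-F u + (1 - u) * deriv F u) u := by
    have := ((hasDerivAt_id u).const_sub 1).mul hF.hasDerivAt
    refine this.congr_deriv ?_
    simp
  have h2 : r' = -F u + (1 - u) * deriv F u :=
    (h1.congr_of_eventuallyEq (h.mono fun w hw => hw.symm)).unique hR |>.symm
  have h3 : R u = (1 - u) * F u := h.self_of_nhds.symm
  rw [h3, h2]
  field_simp
  ring

theorem der1 {F Q : ℂ → ℂ} {u q' : ℂ} (hu : u ≠ 1) (hF : DifferentiableAt ℂ F u)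
    (h : ∀ᶠ w in 𝓝 u, (1 - w) * F w = Q ((w + 1) / (w - 1)))
    (hQ : HasDerivAt Q q' ((u + 1) / (u - 1))) :
    (1 - u) * (u * deriv F u) = (1 - ((u + 1) / (u - 1)) ^ 2) / 2 * q'
      - (1 + (u + 1) / (u - 1)) / 2 * Q ((u + 1) / (u - 1)) := by
  have h1 : u - 1 ≠ 0 := sub_ne_zero.2 hu
  have h2 : 1 - u ≠ 0 := sub_ne_zero.2 (Ne.symm hu)
  have ht : HasDerivAt (fun w : ℂ => (w + 1) / (w - 1)) (-2 / (u - 1) ^ 2) u := by
    have := ((hasDerivAt_id u).add_const (1 : ℂ)).div ((hasDerivAt_id u).sub_const (1 : ℂ)) h1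
    refine this.congr_deriv ?_
    simp only [id]
    ring
  have h3 := derG h2 hF h (hQ.comp u ht)
  rw [h3]
  have e1 : u * (-2 / (u - 1) ^ 2) = (1 - ((u + 1) / (u - 1)) ^ 2) / 2 := by
    field_simp; ring
  have e2 : u / (1 - u) = -((1 + (u + 1) / (u - 1)) / 2) := by
    have : u / (1 - u) = -(u / (u - 1)) := by
      rw [← neg_sub u 1, div_neg]
    rw [this]
    field_simp; ring
  rw [e2]
  linear_combination q' * e1

theorem der2 {F Q : ℂ → ℂ} {u q' : ℂ} (hu : u ≠ 1) (hu0 : u ≠ 0) (hF : DifferentiableAt ℂ F u)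
    (h : ∀ᶠ w in 𝓝 u, (1 - w) * F w = Q (1 / w))
    (hQ : HasDerivAt Q q' (1 / u)) :
    (1 - u) * (u * deriv F u) = -(1 / u) * q' - 1 / (1 - 1 / u) * Q (1 / u) := by
  have h2 : 1 - u ≠ 0 := sub_ne_zero.2 (Ne.symm hu)
  have h1 : u - 1 ≠ 0 := sub_ne_zero.2 hu
  have ht : HasDerivAt (fun w : ℂ => 1 / w) (-1 / u ^ 2) u := by
    have := (hasDerivAt_inv hu0)
    simp only [one_div]
    refine this.congr_deriv ?_
    rw [neg_div, one_div]
  have h3 := derG h2 hF h (hQ.comp u ht)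
  rw [h3]
  have e1 : u * (-1 / u ^ 2) = -(1 / u) := by
    field_simp
  have h4 : 1 - 1 / u ≠ 0 := by
    intro h
    apply h1
    field_simp at h
    linear_combination h
  have e2 : u / (1 - u) = -(1 / (1 - 1 / u)) := by
    have h5 : 1 - 1 / u = (u - 1) / u := by field_simp
    rw [h5, one_div_div, ← neg_sub u 1, div_neg]
  rw [e2]
  linear_combination q' * e1

theorem der3 {F Q : ℂ → ℂ} {u q' : ℂ} (hu : u ≠ 1) (hu1 : u ≠ -1) (hF : DifferentiableAt ℂ F u)
    (h : ∀ᶠ w in 𝓝 u, (1 - w) * F w = Q ((w - 1) / (w + 1)))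
    (hQ : HasDerivAt Q q' ((u - 1) / (u + 1))) :
    (1 - u) * (u * deriv F u) = (1 - ((u - 1) / (u + 1)) ^ 2) / 2 * q'
      - (1 + (u - 1) / (u + 1)) / (2 * ((u - 1) / (u + 1))) * Q ((u - 1) / (u + 1)) := by
  have h1 : u - 1 ≠ 0 := sub_ne_zero.2 hu
  have h2 : 1 - u ≠ 0 := sub_ne_zero.2 (Ne.symm hu)
  have h6 : u + 1 ≠ 0 := by
    intro h
    apply hu1
    linear_combination h
  have ht : HasDerivAt (fun w : ℂ => (w - 1) / (w + 1)) (2 / (u + 1) ^ 2) u := by
    have := ((hasDerivAt_id u).sub_const (1 : ℂ)).div ((hasDerivAt_id u).add_const (1 : ℂ)) h6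
    refine this.congr_deriv ?_
    simp only [id]
    ring
  have h3 := derG h2 hF h (hQ.comp u ht)
  rw [h3]
  have e1 : u * (2 / (u + 1) ^ 2) = (1 - ((u - 1) / (u + 1)) ^ 2) / 2 := by
    field_simp; ring
  have e2 : u / (1 - u) = -((1 + (u - 1) / (u + 1)) / (2 * ((u - 1) / (u + 1)))) := by
    have : u / (1 - u) = -(u / (u - 1)) := by
      rw [← neg_sub u 1, div_neg]
    rw [this]
    field_simp; ring
  rw [e2]
  linear_combination q' * e1

/-! ### derivatives of the series and of the logarithm -/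

variable {t : ℂ}

theorem hk (ht : ‖t‖ < 1) : HasDerivAt k0 (k1 t) t := hd_e0 pq_serK ht
theorem hm (ht : ‖t‖ < 1) : HasDerivAt m0 (m1 t) t := hd_e0 pq_serM ht
theorem hb (ht : ‖t‖ < 1) : HasDerivAt b0 (b1 t) t := hd_e0 pq_serB ht
theorem hd (ht : ‖t‖ < 1) : HasDerivAt d0 (d1 t) t := hd_e0 pq_serB2 ht
theorem hr (ht : ‖t‖ < 1) : HasDerivAt r0 (r1 t) t := hd_e0 pq_serR ht

theorem hlog (hs : t ∈ Complex.slitPlane) : HasDerivAt Complex.log t⁻¹ t := Complex.hasDerivAt_log hs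

theorem hlogn (hs : -t ∈ Complex.slitPlane) : HasDerivAt (fun t => Complex.log (-t)) t⁻¹ t := by
  have h := (hasDerivAt_id t).neg.clog hs
  refine h.congr_deriv ?_
  show -1 / -t = t⁻¹
  rw [neg_div_neg_eq, one_div]

theorem hone (t : ℂ) : HasDerivAt (fun t : ℂ => 1 - t) (-1) t := (hasDerivAt_id t).const_sub 1

/-- the functions at `c0` -/
theorem q0 (ht : ‖t‖ < 1) (hs : t ∈ Complex.slitPlane) (ht1 : 1 - t ≠ 0) (i : Fin 8) :
    ∃ q', HasDerivAt (fun t => C06 (Complex.log t) t i) q' t ∧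
      t * q' + t / (1 - t) * C06 (Complex.log t) t i = C07 (Complex.log t) t i := by
  have ht0 : t ≠ 0 := Complex.slitPlane_ne_zero hs
  have zero : ∀ j : Fin 8, (∀ T t, C06 T t j = 0) → (∀ T t, C07 T t j = 0) →
      ∃ q', HasDerivAt (fun t => C06 (Complex.log t) t j) q' t ∧
      t * q' + t / (1 - t) * C06 (Complex.log t) t j = C07 (Complex.log t) t j := by
    intro j h1 h2
    refine ⟨0, ?_, ?_⟩
    · simp only [h1]
      exact hasDerivAt_const _ _
    · rw [h1, h2]; ring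
  have a := (hone t).mul (hk ht)
  have b := (hone t).mul (hb ht)
  have m := (hone t).mul (hm ht)
  fin_cases i
  · refine ⟨_, b.sub (a.const_mul xc), ?_⟩
    show t * _ + t / (1 - t) * ((1 - t) * b0 t - xc * ((1 - t) * k0 t))
      = (1 - t) * (t * b1 t) - xc * ((1 - t) * (t * k1 t))
    field_simp
    ring
  · exact zero 1 (fun _ _ => rfl) (fun _ _ => rfl)
  · exact zero 2 (fun _ _ => rfl) (fun _ _ => rfl)
  · exact zero 3 (fun _ _ => rfl) (fun _ _ => rfl)
  · exact zero 4 (fun _ _ => rfl) (fun _ _ => rfl)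
  · exact zero 5 (fun _ _ => rfl) (fun _ _ => rfl)
  · refine ⟨_, a.const_mul (pc / 2), ?_⟩
    show t * _ + t / (1 - t) * (pc / 2 * ((1 - t) * k0 t)) = pc / 2 * ((1 - t) * (t * k1 t))
    field_simp
    ring
  · refine ⟨_, (((hlog hs).const_sub (2 * l2)).mul a).sub m, ?_⟩
    show t * _ + t / (1 - t) * ((2 * l2 - Complex.log t) * ((1 - t) * k0 t) - (1 - t) * m0 t)
      = (2 * l2 - Complex.log t) * ((1 - t) * (t * k1 t)) - (1 - t) * (t * m1 t + k0 t)
    simp only [Pi.mul_apply]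
    field_simp
    ring

/-- the functions at `c1` -/
theorem q1 (ht : ‖t‖ < 1) (hs : -t ∈ Complex.slitPlane) (i : Fin 8) :
    ∃ q', HasDerivAt (fun t => C16 (Complex.log (-t)) t i) q' t ∧
      (1 - t ^ 2) / 2 * q' - (1 + t) / 2 * C16 (Complex.log (-t)) t i
        = C17 (Complex.log (-t)) t i := by
  have ht0 : t ≠ 0 := by
    intro h
    have := Complex.slitPlane_ne_zero hs
    rw [h, neg_zero] at this
    exact this rfl
  have zero : ∀ j : Fin 8, (∀ T t, C16 T t j = 0) → (∀ T t, C17 T t j = 0) →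
      ∃ q', HasDerivAt (fun t => C16 (Complex.log (-t)) t j) q' t ∧
      (1 - t ^ 2) / 2 * q' - (1 + t) / 2 * C16 (Complex.log (-t)) t j
        = C17 (Complex.log (-t)) t j := by
    intro j h1 h2
    refine ⟨0, ?_, ?_⟩
    · simp only [h1]
      exact hasDerivAt_const _ _
    · rw [h1, h2]; ring
  have hA : HasDerivAt (fun t => 2 * l2 * k0 t - (m0 t + Complex.log (-t) * k0 t))
      (2 * l2 * k1 t - (m1 t + (t⁻¹ * k0 t + Complex.log (-t) * k1 t))) t :=
    ((hk ht).const_mul _).sub ((hm ht).add ((hlogn hs).mul (hk ht)))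
  fin_cases i
  · refine ⟨_, (hd ht).sub ((hk ht).const_mul (pc ^ 2 / 16)), ?_⟩
    show _ - (1 + t) / 2 * (d0 t - pc ^ 2 / 16 * k0 t)
      = twv t (d0 t) (d1 t) - pc ^ 2 / 16 * twv t (k0 t) (k1 t)
    simp only [twv]
    ring
  · exact zero 1 (fun _ _ => rfl) (fun _ _ => rfl)
  · exact zero 2 (fun _ _ => rfl) (fun _ _ => rfl)
  · exact zero 3 (fun _ _ => rfl) (fun _ _ => rfl)
  · exact zero 4 (fun _ _ => rfl) (fun _ _ => rfl)
  · exact zero 5 (fun _ _ => rfl) (fun _ _ => rfl)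
  · refine ⟨_, hA, ?_⟩
    show _ - (1 + t) / 2 * (2 * l2 * k0 t - (m0 t + Complex.log (-t) * k0 t))
      = 2 * l2 * twv t (k0 t) (k1 t) - (twv t (m0 t) (m1 t)
        + Complex.log (-t) * twv t (k0 t) (k1 t) + (1 - t ^ 2) / (2 * t) * k0 t)
    simp only [twv]
    field_simp
    ring
  · refine ⟨_, ((hk ht).const_mul pc).sub (hA.const_mul (2 * Complex.I)), ?_⟩
    show _ - (1 + t) / 2 * (pc * k0 t
        - 2 * Complex.I * (2 * l2 * k0 t - (m0 t + Complex.log (-t) * k0 t)))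
      = pc * twv t (k0 t) (k1 t) - 2 * Complex.I * (2 * l2 * twv t (k0 t) (k1 t)
        - (twv t (m0 t) (m1 t) + Complex.log (-t) * twv t (k0 t) (k1 t)
          + (1 - t ^ 2) / (2 * t) * k0 t))
    simp only [twv]
    field_simp
    ring

/-- the functions at `c2` -/
theorem q2 (ht : ‖t‖ < 1) (hs : -t ∈ Complex.slitPlane) (ht1 : 1 - t ≠ 0) (i : Fin 8) :
    ∃ q', HasDerivAt (fun t => C26 (Complex.log (-t)) t i) q' t ∧
      -t * q' - 1 / (1 - t) * C26 (Complex.log (-t)) t i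
        = C27 (Complex.log (-t)) t i := by
  have ht0 : t ≠ 0 := by
    intro h
    have := Complex.slitPlane_ne_zero hs
    rw [h, neg_zero] at this
    exact this rfl
  have zero : ∀ j : Fin 8, (∀ T t, C26 T t j = 0) → (∀ T t, C27 T t j = 0) →
      ∃ q', HasDerivAt (fun t => C26 (Complex.log (-t)) t j) q' t ∧
      -t * q' - 1 / (1 - t) * C26 (Complex.log (-t)) t j
        = C27 (Complex.log (-t)) t j := by
    intro j h1 h2
    refine ⟨0, ?_, ?_⟩
    · simp only [h1]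
      exact hasDerivAt_const _ _
    · rw [h1, h2]; ring
  have hv : HasDerivAt v6 (-(-1 * k0 t + (1 - t) * k1 t)) t := ((hone t).mul (hk ht)).neg
  have hv' : -t * (-(-1 * k0 t + (1 - t) * k1 t)) - 1 / (1 - t) * v6 t = v7 t := by
    simp only [v6, v7]
    field_simp
    ring
  have hA : HasDerivAt (fun t => a16 (Complex.log (-t)) t)
      (-(-1 * m0 t + (1 - t) * m1 t) + (t⁻¹ * v6 t
        + Complex.log (-t) * (-(-1 * k0 t + (1 - t) * k1 t)))
        - 2 * l2 * (-(-1 * k0 t + (1 - t) * k1 t))) t :=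
    ((((hone t).mul (hm ht)).neg).add ((hlogn hs).mul hv)).sub (hv.const_mul _)
  have hA' : -t * (-(-1 * m0 t + (1 - t) * m1 t) + (t⁻¹ * v6 t
        + Complex.log (-t) * (-(-1 * k0 t + (1 - t) * k1 t)))
        - 2 * l2 * (-(-1 * k0 t + (1 - t) * k1 t)))
      - 1 / (1 - t) * a16 (Complex.log (-t)) t = a17 (Complex.log (-t)) t := by
    simp only [v6, v7, a16, a17]
    field_simp
    ring
  have hB : HasDerivAt (fun t => -((1 - t) * b0 t)) (-(-1 * b0 t + (1 - t) * b1 t)) t :=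
    ((hone t).mul (hb ht)).neg
  have hB' : -t * (-(-1 * b0 t + (1 - t) * b1 t)) - 1 / (1 - t) * (-((1 - t) * b0 t))
      = (1 - t) * (b0 t + t * b1 t) := by
    field_simp
    ring
  have h7 : HasDerivAt (fun t => 2 * Complex.I * (pc / 2 * v6 t) - a16 (Complex.log (-t)) t) _ t :=
    ((hv.const_mul (pc / 2)).const_mul (2 * Complex.I)).sub hA
  fin_cases i
  · refine ⟨_, (hB.sub (hA.const_mul (pc / 8))).sub (hv.const_mul xc), ?_⟩
    show _ - 1 / (1 - t) * (-((1 - t) * b0 t) - pc / 8 * a16 (Complex.log (-t)) t - xc * v6 t)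
      = (1 - t) * (b0 t + t * b1 t) - pc / 8 * a17 (Complex.log (-t)) t - xc * v7 t
    linear_combination hB' - pc / 8 * hA' - xc * hv'
  · exact zero 1 (fun _ _ => rfl) (fun _ _ => rfl)
  · exact zero 2 (fun _ _ => rfl) (fun _ _ => rfl)
  · exact zero 3 (fun _ _ => rfl) (fun _ _ => rfl)
  · exact zero 4 (fun _ _ => rfl) (fun _ _ => rfl)
  · exact zero 5 (fun _ _ => rfl) (fun _ _ => rfl)
  · refine ⟨_, (hv.const_mul (pc / 2)).add (h7.const_mul Complex.I), ?_⟩
    show _ - 1 / (1 - t) * (pc / 2 * v6 t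
        + Complex.I * (2 * Complex.I * (pc / 2 * v6 t) - a16 (Complex.log (-t)) t))
      = pc / 2 * v7 t + Complex.I * (2 * Complex.I * (pc / 2 * v7 t) - a17 (Complex.log (-t)) t)
    linear_combination (pc / 2 + Complex.I * (2 * Complex.I * (pc / 2))) * hv'
      - Complex.I * hA'
  · refine ⟨_, h7, ?_⟩
    show _ - 1 / (1 - t) * (2 * Complex.I * (pc / 2 * v6 t) - a16 (Complex.log (-t)) t)
      = 2 * Complex.I * (pc / 2 * v7 t) - a17 (Complex.log (-t)) t
    linear_combination (2 * Complex.I * (pc / 2)) * hv' - hA'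

/-- the functions at `c3` -/
theorem q3 (ht : ‖t‖ < 1) (hs : -t ∈ Complex.slitPlane) (i : Fin 8) :
    ∃ q', HasDerivAt (fun t => C36 (Complex.log (-t)) t i) q' t ∧
      (1 - t ^ 2) / 2 * q' - (1 + t) / (2 * t) * C36 (Complex.log (-t)) t i
        = C37 (Complex.log (-t)) t i := by
  have ht0 : t ≠ 0 := by
    intro h
    have := Complex.slitPlane_ne_zero hs
    rw [h, neg_zero] at this
    exact this rfl
  have zero : ∀ j : Fin 8, (∀ T t, C36 T t j = 0) → (∀ T t, C37 T t j = 0) →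
      ∃ q', HasDerivAt (fun t => C36 (Complex.log (-t)) t j) q' t ∧
      (1 - t ^ 2) / 2 * q' - (1 + t) / (2 * t) * C36 (Complex.log (-t)) t j
        = C37 (Complex.log (-t)) t j := by
    intro j h1 h2
    refine ⟨0, ?_, ?_⟩
    · simp only [h1]
      exact hasDerivAt_const _ _
    · rw [h1, h2]; ring
  have hk1 : HasDerivAt (fun t => t * k0 t) (1 * k0 t + t * k1 t) t :=
    (hasDerivAt_id t).mul (hk ht)
  have hx : HasDerivAt (fun t => xm6 (Complex.log (-t)) t)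
      (m1 t + (t⁻¹ * k0 t + Complex.log (-t) * k1 t)) t :=
    (hm ht).add ((hlogn hs).mul (hk ht))
  have hL2 : HasDerivAt (fun t => Complex.log (-t) ^ 2) (2 * Complex.log (-t) * t⁻¹) t := by
    have := (hlogn hs).pow 2
    refine this.congr_deriv ?_
    push_cast
    ring
  have hR : HasDerivAt (fun t => (r0 t + 2 * Complex.log (-t) * m0 t
      + Complex.log (-t) ^ 2 * k0 t) / 8)
      ((r1 t + (2 * t⁻¹ * m0 t + 2 * Complex.log (-t) * m1 t)
        + (2 * Complex.log (-t) * t⁻¹ * k0 t + Complex.log (-t) ^ 2 * k1 t)) / 8) t :=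
    (((hr ht).add (((hlogn hs).const_mul 2).mul (hm ht))).add (hL2.mul (hk ht))).div_const 8
  fin_cases i
  · refine ⟨_, (hasDerivAt_id t).mul ((hR.sub (hx.const_mul (l2 / 2))).add
      ((hk ht).const_mul (l2 ^ 2 / 2 + pc ^ 2 / 48))), ?_⟩
    show _ - (1 + t) / (2 * t) * (t * ((r0 t + 2 * Complex.log (-t) * m0 t
        + Complex.log (-t) ^ 2 * k0 t) / 8 - l2 / 2 * xm6 (Complex.log (-t)) t
        + (l2 ^ 2 / 2 + pc ^ 2 / 48) * k0 t))
      = (t * twv t (r0 t) (r1 t) + (1 - t ^ 2) * m0 t) / 8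
      + Complex.log (-t) / 4 * (t * twv t (m0 t) (m1 t) + 1 / 2 * ((1 - t ^ 2) * k0 t))
      + Complex.log (-t) ^ 2 / 8 * (t * twv t (k0 t) (k1 t)) - l2 / 2 * xm7 (Complex.log (-t)) t
      + (l2 ^ 2 / 2 + pc ^ 2 / 48) * (t * twv t (k0 t) (k1 t))
    simp only [twv, xm6, xm7, id]
    field_simp
    ring
  · exact zero 1 (fun _ _ => rfl) (fun _ _ => rfl)
  · exact zero 2 (fun _ _ => rfl) (fun _ _ => rfl)
  · exact zero 3 (fun _ _ => rfl) (fun _ _ => rfl)
  · exact zero 4 (fun _ _ => rfl) (fun _ _ => rfl)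
  · exact zero 5 (fun _ _ => rfl) (fun _ _ => rfl)
  · refine ⟨_, (hasDerivAt_id t).mul (hx.sub ((hk ht).const_mul (2 * l2))), ?_⟩
    show _ - (1 + t) / (2 * t) * (t * (xm6 (Complex.log (-t)) t - 2 * l2 * k0 t))
      = xm7 (Complex.log (-t)) t - 2 * l2 * (t * twv t (k0 t) (k1 t))
    simp only [twv, xm6, xm7, id]
    field_simp
    ring
  · refine ⟨_, (hk1.const_mul pc).neg, ?_⟩
    show _ - (1 + t) / (2 * t) * (-(pc * (t * k0 t))) = -(pc * (t * twv t (k0 t) (k1 t)))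
    simp only [twv]
    field_simp
    ring

end

end Vale.Agent.P030.H60.ExV
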