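import Vale.Agent.P030.H60.ExV3
import Vale.Agent.P030.H810.KcEx

/-!
# P030, V-layer: components 6 and 7 of the eight global vectors

`IsFh F` : the expansions of the main branch at the four cusps.
-/

open PowerSeries Metric Set Filter Topology

namespace Vale.Agent.P030.H60.ExV

open Vale.Agent.P030.T Vale.Agent.P030.H462 Vale.Agent.P030.AR

noncomputable section

/-- the main branch of the inhomogeneous equation, with its four expansions -/
structure IsFh (F : ℂ → ℂ) : Prop where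
  diff : DifferentiableOn ℂ F Up
  c0 : ∀ u ∈ Up, ‖u‖ < 1 → F u = evQ serB u - xc * evQ serK u
  c1 : ∀ u ∈ Up, ‖(u + 1) / (u - 1)‖ < 1 →
    F u = (evQ serB2 ((u + 1) / (u - 1)) - pc ^ 2 / 16 * evQ serK ((u + 1) / (u - 1))) / (1 - u)
  c2 : ∀ v, ‖v‖ < 1 → v.im < 0 →
    F v⁻¹ = v * (evQ serB v - xc * evQ serK v
      - pc / 8 * (evQ serK v * (Complex.log (-v) - 2 * l2) + evQ serM v))
  c3 : ∀ t, ‖t‖ < 1 → 0 < t.im →
    F ((1 + t) / (1 - t)) = (1 - t) / 2 * (-(1 / 8) * (evQ serK t * (Complex.log (-t) - 2 * l2) ^ 2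
      + 2 * evQ serM t * (Complex.log (-t) - 2 * l2) + evQ H462.serR t) - pc ^ 2 / 48 * evQ serK t)

theorem isOpen_Up : IsOpen Up := isOpen_lt continuous_const Complex.continuous_im

theorem kS_eq (t : ℂ) : H810.kS t = k0 t := by
  rw [k0, ← evq_eq]; rfl
theorem mS_eq (t : ℂ) : H810.mS t = m0 t := by
  rw [m0, ← evq_eq]; rfl

theorem l2_eq : (Real.log 2 : ℂ) = l2 := rfl
theorem pc_eq : (Real.pi : ℂ) = pc := rfl

/-! ### geometry -/

section geo

variable {u : ℂ}

theorem ne_of_im {u : ℂ} (hu : u.im ≠ 0) (x : ℝ) : u ≠ x := by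
  intro h
  rw [h] at hu
  exact hu (Complex.ofReal_im x)

theorem up_ne_one (hu : u ∈ Up) : u ≠ 1 := by
  have := ne_of_im (ne_of_gt hu) 1
  simpa using this
theorem up_ne_neg_one (hu : u ∈ Up) : u ≠ -1 := by
  have := ne_of_im (ne_of_gt hu) (-1)
  simpa using this
theorem up_ne_zero (hu : u ∈ Up) : u ≠ 0 := by
  have := ne_of_im (ne_of_gt hu) 0
  simpa using this

theorem im_t1 (hu : u ∈ Up) : ((u + 1) / (u - 1)).im < 0 := by
  have h1 : u - 1 ≠ 0 := sub_ne_zero.2 (up_ne_one hu)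
  have h4 : 0 < Complex.normSq (u - 1) := Complex.normSq_pos.mpr h1
  have h3 : ((u + 1) / (u - 1)).im = -2 * u.im / Complex.normSq (u - 1) := by
    rw [Complex.div_im]
    simp only [Complex.add_im, Complex.one_im, Complex.sub_re, Complex.one_re,
      Complex.add_re, Complex.sub_im]
    ring
  rw [h3]
  apply div_neg_of_neg_of_pos _ h4
  have : 0 < u.im := hu
  linarith

theorem im_t2 (hu : u ∈ Up) : (1 / u).im < 0 := by
  have h4 : 0 < Complex.normSq u := Complex.normSq_pos.mpr (up_ne_zero hu)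
  rw [one_div, Complex.inv_im]
  apply div_neg_of_neg_of_pos _ h4
  have : 0 < u.im := hu
  linarith

theorem im_t3 (hu : u ∈ Up) : 0 < ((u - 1) / (u + 1)).im := by
  have h1 : u + 1 ≠ 0 := by
    intro h
    exact up_ne_neg_one hu (by linear_combination h)
  have h4 : 0 < Complex.normSq (u + 1) := Complex.normSq_pos.mpr h1
  have h3 : ((u - 1) / (u + 1)).im = 2 * u.im / Complex.normSq (u + 1) := by
    rw [Complex.div_im]
    simp only [Complex.add_im, Complex.one_im, Complex.sub_re, Complex.one_re,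
      Complex.add_re, Complex.sub_im]
    ring
  rw [h3]
  have : 0 < u.im := hu
  positivity

theorem slit_of_im {t : ℂ} (h : t.im ≠ 0) : t ∈ Complex.slitPlane := Or.inr h
theorem nslit_of_im {t : ℂ} (h : t.im ≠ 0) : -t ∈ Complex.slitPlane := Or.inr (by
  rw [Complex.neg_im]; exact neg_ne_zero.2 h)

theorem one_sub_ne {t : ℂ} (ht : ‖t‖ < 1) : 1 - t ≠ 0 := by
  intro h
  have : t = 1 := by linear_combination -h
  rw [this] at ht
  simp at ht

theorem inv_t1 (hu : u ∈ Up) :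
    u = -((1 + (u + 1) / (u - 1)) / (1 - (u + 1) / (u - 1))) := by
  have h1 : u - 1 ≠ 0 := sub_ne_zero.2 (up_ne_one hu)
  have e1 : 1 + (u + 1) / (u - 1) = 2 * u / (u - 1) := by field_simp; ring
  have e2 : 1 - (u + 1) / (u - 1) = -2 / (u - 1) := by field_simp; ring
  rw [e1, e2]
  field_simp

theorem inv_t3 (hu : u ∈ Up) :
    u = (1 + (u - 1) / (u + 1)) / (1 - (u - 1) / (u + 1)) := by
  have h1 : u + 1 ≠ 0 := by
    intro h
    exact up_ne_neg_one hu (by linear_combination h)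
  have e1 : 1 + (u - 1) / (u + 1) = 2 * u / (u + 1) := by field_simp; ring
  have e2 : 1 - (u - 1) / (u + 1) = 2 / (u + 1) := by field_simp; ring
  rw [e1, e2]
  field_simp

end geo

/-! ### component 6 -/

/-- the eight functions `F` -/
def Fv (F : ℂ → ℂ) : Fin 8 → ℂ → ℂ :=
  ![F, fun _ => 0, fun _ => 0, fun _ => 0, fun _ => 0, fun _ => 0, H810.A0 H3.Kc, H810.A3 H3.Kc]

/-- the components 6 and 7 -/
def KV (F : ℂ → ℂ) (i : Fin 8) (u : ℂ) : ℂ × ℂ :=
  ((1 - u) * Fv F i u, (1 - u) * (u * deriv (Fv F i) u))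

variable {F : ℂ → ℂ} {u : ℂ}

theorem diff_Fv (hF : IsFh F) (i : Fin 8) (hu : u ∈ Up) : DifferentiableAt ℂ (Fv F i) u := by
  have hs : u ∈ Complex.slitPlane := Or.inr (ne_of_gt hu)
  fin_cases i
  · exact hF.diff.differentiableAt (isOpen_Up.mem_nhds hu)
  · exact differentiableAt_const _
  · exact differentiableAt_const _
  · exact differentiableAt_const _
  · exact differentiableAt_const _
  · exact differentiableAt_const _
  · exact (H810.isKc.analyticAt (H810.mem_OmK_of_im (ne_of_gt hu))).differentiableAt.const_mul _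
  · exact (H810.isKc.analyticAt_A3 hs).differentiableAt

theorem f0 (hF : IsFh F) (hu : u ∈ Up) (h : ‖u‖ < 1) (i : Fin 8) :
    (1 - u) * Fv F i u = C06 (Complex.log u) u i := by
  have hs : u ∈ Complex.slitPlane := Or.inr (ne_of_gt hu)
  fin_cases i
  · show (1 - u) * F u = (1 - u) * b0 u - xc * ((1 - u) * k0 u)
    rw [hF.c0 u hu h, b0, k0]; ring
  · exact mul_zero _
  · exact mul_zero _
  · exact mul_zero _
  · exact mul_zero _
  · exact mul_zero _
  · show (1 - u) * H810.A0 H3.Kc u = pc / 2 * ((1 - u) * k0 u)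
    rw [H810.A0, H810.isKc.eq u h, kS_eq, pc_eq]; ring
  · show (1 - u) * H810.A3 H3.Kc u = (2 * l2 - Complex.log u) * ((1 - u) * k0 u) - (1 - u) * m0 u
    rw [H810.isKc.A3_c0 h hs, kS_eq, mS_eq, l2_eq]; ring

theorem f1 (hF : IsFh F) (hu : u ∈ Up) (h : ‖(u + 1) / (u - 1)‖ < 1) (i : Fin 8) :
    (1 - u) * Fv F i u = C16 (Complex.log (-((u + 1) / (u - 1)))) ((u + 1) / (u - 1)) i := by
  have him := im_t1 hu
  have hu1 : 1 - u ≠ 0 := sub_ne_zero.2 (Ne.symm (up_ne_one hu))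
  have hinv := inv_t1 hu
  have hF1 := hF.c1 u hu h
  set t := (u + 1) / (u - 1) with ht
  have hs := nslit_of_im (ne_of_lt him)
  have h1t : 1 - t ≠ 0 := one_sub_ne h
  have hum : 1 - u = 2 / (1 - t) := by
    rw [hinv]; field_simp; ring
  have hA0 : (1 - u) * H810.A0 H3.Kc u
      = 2 * l2 * k0 t - (m0 t + Complex.log (-t) * k0 t) := by
    have e := H810.isKc.A0_c1 h hs
    rw [← hinv, kS_eq, mS_eq, l2_eq] at e
    rw [e, hum]
    field_simp
    ring
  fin_cases i
  · show (1 - u) * F u = d0 t - pc ^ 2 / 16 * k0 t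
    rw [hF1, mul_div_cancel₀ _ hu1]; rfl
  · exact mul_zero _
  · exact mul_zero _
  · exact mul_zero _
  · exact mul_zero _
  · exact mul_zero _
  · exact hA0
  · show (1 - u) * H810.A3 H3.Kc u = pc * k0 t
      - 2 * Complex.I * (2 * l2 * k0 t - (m0 t + Complex.log (-t) * k0 t))
    have e := H810.isKc.A1_c1 h
    rw [← hinv, kS_eq, pc_eq] at e
    have e2 := H810.isKc.A1_rel hu
    have e3 : (1 - u) * H810.A1 H3.Kc u = pc * k0 t := by
      rw [e, hum]; field_simp
    rw [← hA0, ← e3, e2]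
    ring

theorem f2 (hF : IsFh F) (hu : u ∈ Up) (h : 1 < ‖u‖) (i : Fin 8) :
    (1 - u) * Fv F i u = C26 (Complex.log (-(1 / u))) (1 / u) i := by
  have him := im_t2 hu
  have hu0 := up_ne_zero hu
  have hn : ‖1 / u‖ < 1 := by
    rw [one_div, norm_inv]
    exact inv_lt_one_of_one_lt₀ h
  have hinv : u = (1 / u)⁻¹ := by rw [one_div, inv_inv]
  have hF2 := hF.c2 (1 / u) hn him
  rw [← hinv] at hF2
  have hum : 1 - u = -((1 - 1 / u) / (1 / u)) := by
    field_simp; ring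
  have ht0 : (1 / u : ℂ) ≠ 0 := one_div_ne_zero hu0
  set t := 1 / u with ht
  have hs := nslit_of_im (ne_of_lt him)
  have h1t : 1 - t ≠ 0 := one_sub_ne hn
  have hA1 : (1 - u) * H810.A1 H3.Kc u = a16 (Complex.log (-t)) t := by
    have e := H810.isKc.A1_c2 hn hs
    rw [← hinv, kS_eq, mS_eq, l2_eq] at e
    rw [e, hum, a16, v6]
    field_simp
    ring
  have hA2 : (1 - u) * H810.A2 H3.Kc u = pc / 2 * v6 t := by
    have e := H810.isKc.A2_c2 hn
    rw [← hinv, kS_eq, pc_eq] at e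
    rw [e, hum, v6]
    field_simp
  have r1 := H810.isKc.A1_rel hu
  have r2 := H810.isKc.A2_rel hu
  have hI : Complex.I * Complex.I = -1 := Complex.I_mul_I
  have hA3 : (1 - u) * H810.A3 H3.Kc u
      = 2 * Complex.I * (pc / 2 * v6 t) - a16 (Complex.log (-t)) t := by
    rw [← hA1, ← hA2, r1, r2]
    linear_combination (2 * (1 - u) * H810.A3 H3.Kc u) * hI
  fin_cases i
  · show (1 - u) * F u
      = -((1 - t) * b0 t) - pc / 8 * a16 (Complex.log (-t)) t - xc * v6 t
    rw [hF2, hum, a16, v6, b0, k0, m0]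
    field_simp
    ring
  · exact mul_zero _
  · exact mul_zero _
  · exact mul_zero _
  · exact mul_zero _
  · exact mul_zero _
  · show (1 - u) * H810.A0 H3.Kc u = pc / 2 * v6 t
      + Complex.I * (2 * Complex.I * (pc / 2 * v6 t) - a16 (Complex.log (-t)) t)
    rw [← hA3, ← hA2, r2]
    ring
  · exact hA3

theorem f3 (hF : IsFh F) (hu : u ∈ Up) (h : ‖(u - 1) / (u + 1)‖ < 1) (i : Fin 8) :
    (1 - u) * Fv F i u = C36 (Complex.log (-((u - 1) / (u + 1)))) ((u - 1) / (u + 1)) i := by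
  have him := im_t3 hu
  have hu1 : 1 - u ≠ 0 := sub_ne_zero.2 (Ne.symm (up_ne_one hu))
  have hinv := inv_t3 hu
  have hF3 := hF.c3 _ h him
  rw [← hinv] at hF3
  set t := (u - 1) / (u + 1) with ht
  have hs := nslit_of_im (ne_of_gt him)
  have h1t : 1 - t ≠ 0 := one_sub_ne h
  have hum : 1 - u = -2 * t / (1 - t) := by
    rw [hinv]; field_simp; ring
  fin_cases i
  · show (1 - u) * F u
      = t * ((r0 t + 2 * Complex.log (-t) * m0 t + Complex.log (-t) ^ 2 * k0 t) / 8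
      - l2 / 2 * xm6 (Complex.log (-t)) t + (l2 ^ 2 / 2 + pc ^ 2 / 48) * k0 t)
    rw [hF3, hum, xm6, r0, k0, m0]
    field_simp
    ring
  · exact mul_zero _
  · exact mul_zero _
  · exact mul_zero _
  · exact mul_zero _
  · exact mul_zero _
  · show (1 - u) * H810.A0 H3.Kc u = t * (xm6 (Complex.log (-t)) t - 2 * l2 * k0 t)
    have e := H810.isKc.A0_c3 h hs
    rw [← hinv, kS_eq, mS_eq, l2_eq] at e
    rw [e, hum, xm6]
    field_simp
    ring
  · show (1 - u) * H810.A3 H3.Kc u = -(pc * (t * k0 t))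
    have e := H810.isKc.A3_c3 h
    rw [← hinv, kS_eq, pc_eq] at e
    rw [e, hum]
    field_simp

/-! ### component 7 -/

theorem norm_open {f : ℂ → ℂ} (hu : u ∈ Up) (hf : ContinuousAt f u) (h : ‖f u‖ < 1) :
    ∀ᶠ w in 𝓝 u, w ∈ Up ∧ ‖f w‖ < 1 := by
  have h1 : ∀ᶠ w in 𝓝 u, ‖f w‖ < 1 := hf.norm.eventually_lt continuousAt_const h
  have h2 : ∀ᶠ w in 𝓝 u, w ∈ Up := isOpen_Up.mem_nhds hu
  exact h2.and h1

theorem g0 (hF : IsFh F) (hu : u ∈ Up) (h : ‖u‖ < 1) (i : Fin 8) :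
    (1 - u) * (u * deriv (Fv F i) u) = C07 (Complex.log u) u i := by
  have hs : u ∈ Complex.slitPlane := Or.inr (ne_of_gt hu)
  obtain ⟨q', h1, h2⟩ := q0 h hs (one_sub_ne h) i
  rw [← h2]
  refine derG (one_sub_ne h) (diff_Fv hF i hu) ?_ h1
  filter_upwards [norm_open hu continuousAt_id h] with w hw
  exact f0 hF hw.1 hw.2 i

theorem g1 (hF : IsFh F) (hu : u ∈ Up) (h : ‖(u + 1) / (u - 1)‖ < 1) (i : Fin 8) :
    (1 - u) * (u * deriv (Fv F i) u)
      = C17 (Complex.log (-((u + 1) / (u - 1)))) ((u + 1) / (u - 1)) i := by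
  have hs := nslit_of_im (ne_of_lt (im_t1 hu))
  have h1u : u - 1 ≠ 0 := sub_ne_zero.2 (up_ne_one hu)
  obtain ⟨q', h1, h2⟩ := q1 h hs i
  rw [← h2]
  refine der1 (up_ne_one hu) (diff_Fv hF i hu) ?_ h1
  have hc : ContinuousAt (fun w : ℂ => (w + 1) / (w - 1)) u :=
    (continuousAt_id.add continuousAt_const).div (continuousAt_id.sub continuousAt_const) h1u
  filter_upwards [norm_open hu hc h] with w hw
  exact f1 hF hw.1 hw.2 i

theorem g2 (hF : IsFh F) (hu : u ∈ Up) (h : 1 < ‖u‖) (i : Fin 8) :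
    (1 - u) * (u * deriv (Fv F i) u) = C27 (Complex.log (-(1 / u))) (1 / u) i := by
  have hs := nslit_of_im (ne_of_lt (im_t2 hu))
  have hn : ‖1 / u‖ < 1 := by
    rw [one_div, norm_inv]
    exact inv_lt_one_of_one_lt₀ h
  obtain ⟨q', h1, h2⟩ := q2 hn hs (one_sub_ne hn) i
  rw [← h2]
  refine der2 (up_ne_one hu) (up_ne_zero hu) (diff_Fv hF i hu) ?_ h1
  have h3 : ∀ᶠ w in 𝓝 u, 1 < ‖w‖ :=
    (continuousAt_const.eventually_lt continuousAt_id.norm h)
  filter_upwards [isOpen_Up.mem_nhds hu, h3] with w hw hw2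
  exact f2 hF hw hw2 i

theorem g3 (hF : IsFh F) (hu : u ∈ Up) (h : ‖(u - 1) / (u + 1)‖ < 1) (i : Fin 8) :
    (1 - u) * (u * deriv (Fv F i) u)
      = C37 (Complex.log (-((u - 1) / (u + 1)))) ((u - 1) / (u + 1)) i := by
  have hs := nslit_of_im (ne_of_gt (im_t3 hu))
  have h1u : u + 1 ≠ 0 := by
    intro h
    exact up_ne_neg_one hu (by linear_combination h)
  obtain ⟨q', h1, h2⟩ := q3 h hs i
  rw [← h2]
  refine der3 (up_ne_one hu) (up_ne_neg_one hu) (diff_Fv hF i hu) ?_ h1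
  have hc : ContinuousAt (fun w : ℂ => (w - 1) / (w + 1)) u :=
    (continuousAt_id.sub continuousAt_const).div (continuousAt_id.add continuousAt_const) h1u
  filter_upwards [norm_open hu hc h] with w hw
  exact f3 hF hw.1 hw.2 i

end

end Vale.Agent.P030.H60.ExV
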