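import Vale.Agent.P030.H200.Stable3
import Vale.Agent.P030.H782.Iface

/-!
# P030, NV : `LamSt` from helper200's Z2

The coefficient vectors of `T/Defs` are taken in the basis `.., (1-u) F, (1-u) θF`; those of Z2 in
the basis `.., F, (1-u) θF`.  The two connections correspond under `io` = multiplication of the
component `6` by `1 - u`.
-/

open Polynomial

namespace Vale.Agent.P030.H60

open Vale.Agent.P030.H782

/-- the factor of the component `j` -/
noncomputable def dio (j : Fin 8) : ℚ[X] := if j = 6 then 1 - X else 1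

theorem dio_ne_zero (j : Fin 8) : dio j ≠ 0 := by
  unfold dio
  split_ifs
  · intro h
    have h1 := congrArg (eval 0) h
    simp at h1
  · exact one_ne_zero

theorem dio_six : dio 6 = 1 - X := if_pos rfl

theorem dio_ne {j : Fin 8} (h : j ≠ 6) : dio j = 1 := if_neg h

/-- multiplication of the component `6` by `1 - u` -/
noncomputable def io : (Fin 8 → ℚ[X]) →ₗ[ℚ[X]] (Fin 8 → ℚ[X]) where
  toFun P := fun j => dio j * P j
  map_add' P Q := by
    funext j
    simp only [Pi.add_apply, mul_add]
  map_smul' r P := by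
    funext j
    simp only [Pi.smul_apply, smul_eq_mul, RingHom.id_apply]
    ring

theorem io_apply (P : Fin 8 → ℚ[X]) (j : Fin 8) : io P j = dio j * P j := rfl

theorem io_ne {j : Fin 8} (h : j ≠ 6) (P : Fin 8 → ℚ[X]) : io P j = P j := by
  rw [io_apply, dio_ne h, one_mul]

theorem io_six (P : Fin 8 → ℚ[X]) : io P 6 = (1 - X) * P 6 := by
  rw [io_apply, dio_six]

theorem io_injective : Function.Injective io := by
  intro P Q h
  funext j
  have h1 := congrFun h j
  rw [io_apply, io_apply] at h1
  exact mul_left_cancel₀ (dio_ne_zero j) h1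

theorem NTt_apply (P : Fin 8 → ℚ[X]) (j : Fin 8) : NTt P j =
    X * (X + 1) * (X - 1) * derivative (P j) + ![
    -(X * (X + 1)) * P 2 + C (1 / 4) * X * P 7,
    C (1 / 2) * X * (X - 3) * P 4 - C (1 / 2) * X * (X + 1) * P 5,
    (X ^ 2 - 1) * P 3 + X * (X - 1) * P 4 - X * (X + 1) * P 5,
    0, 0, 0,
    X * (X + 1) * P 6 - X ^ 2 * P 7,
    (X ^ 2 - 1) * P 6 + (X - X ^ 2) * P 7] j := rfl

/-- the two connections correspond -/
theorem NT_io (P : Fin 8 → ℚ[X]) : H200.NT (io P) = io (NTt P) := by
  have hC : (C (1 / 2 : ℚ) : ℚ[X]) * 2 = 1 := by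
    rw [← C_ofNat, ← C_mul]; norm_num
  apply H200.vec_ext
  · rw [H200.NT_0, io_ne (by decide), io_ne (by decide), io_ne (by decide), io_ne (by decide),
      NTt_apply]
    simp only [H200.th, Matrix.cons_val]
    ring
  · rw [H200.NT_1, io_ne (by decide), io_ne (by decide), io_ne (by decide), io_ne (by decide),
      NTt_apply]
    simp only [H200.th, Matrix.cons_val]
    linear_combination (X * (X - 1) * P 4) * (-hC)
  · rw [H200.NT_2, io_ne (by decide), io_ne (by decide), io_ne (by decide), io_ne (by decide),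
      io_ne (by decide), NTt_apply]
    simp only [H200.th, Matrix.cons_val]
    ring
  · rw [H200.NT_3, io_ne (by decide), io_ne (by decide), NTt_apply]
    simp only [H200.th, Matrix.cons_val]
    ring
  · rw [H200.NT_4, io_ne (by decide), io_ne (by decide), NTt_apply]
    simp only [H200.th, Matrix.cons_val]
    ring
  · rw [H200.NT_5, io_ne (by decide), io_ne (by decide), NTt_apply]
    simp only [H200.th, Matrix.cons_val]
    ring
  · rw [H200.NT_6, io_six, io_ne (by decide), io_six, NTt_apply]
    simp only [H200.nF, H200.th, Matrix.cons_val, derivative_mul, derivative_sub, derivative_one,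
      derivative_X]
    ring
  · rw [H200.NT_7, io_six, io_ne (by decide), io_ne (by decide), NTt_apply]
    simp only [H200.nT, H200.th, Matrix.cons_val]
    ring

theorem NT_iter_io (P : Fin 8 → ℚ[X]) (n : ℕ) : H200.NT^[n] (io P) = io (NTt^[n] P) := by
  induction n with
  | zero => rfl
  | succ n ih => rw [Function.iterate_succ_apply', Function.iterate_succ_apply', ih, NT_io]

theorem vec8 (a0 a1 a2 : ℚ) : (![a0, a1, a2, 0, 0, 0, 0, 0] : Fin 8 → ℚ) =
    a0 • Pi.single 0 1 + a1 • Pi.single 1 1 + a2 • Pi.single 2 1 := by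
  funext i
  fin_cases i <;> simp

/-- **`LamSt`** of `H782/Iface.lean`. -/
theorem lamSt : LamSt := by
  intro P hP
  have hio : io P ≠ 0 := by
    intro h
    exact hP (io_injective (by rw [h, map_zero]))
  obtain ⟨L, hL, hne, hco, hli, -⟩ := H200.Z2 (io P) hio
  refine ⟨L, ⟨hne, ?_, ?_, ?_, ?_, ?_⟩, ?_, ?_⟩
  · -- `e_1` or a line
    by_cases h0 : (Pi.single 0 1 : Fin 8 → ℚ) ∈ L
    · exact Or.inl h0
    right
    have hz := hL.rk1 h0
    have form : ∀ v ∈ L, v = v 0 • Pi.single 0 1 + v 1 • Pi.single 1 1 := by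
      intro v hv
      obtain ⟨h2, h3, h4, h5, h6, h7⟩ := hz v hv
      funext i
      fin_cases i <;> simp [h2, h3, h4, h5, h6, h7]
    obtain ⟨v, hv, hv0⟩ := (Submodule.ne_bot_iff L).mp hne
    have hv1 : v 1 ≠ 0 := by
      intro h1
      have h2 := form v hv
      rw [h1, zero_smul, add_zero] at h2
      have h3 : v 0 ≠ 0 := by
        intro h3
        rw [h3, zero_smul] at h2
        exact hv0 h2
      apply h0
      have h4 : (Pi.single 0 1 : Fin 8 → ℚ) = (v 0)⁻¹ • v := by
        rw [h2, smul_smul]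
        simp [h3]
      rw [h4]
      exact L.smul_mem _ hv
    set c := v 0 / v 1 with hc
    have hw : (![c, 1, 0, 0, 0, 0, 0, 0] : Fin 8 → ℚ) ∈ L := by
      have h4 : (![c, 1, 0, 0, 0, 0, 0, 0] : Fin 8 → ℚ) = (v 1)⁻¹ • v := by
        have h5 : (v 1)⁻¹ • v = (v 1)⁻¹ • (v 0 • Pi.single 0 1 + v 1 • Pi.single 1 1) :=
          congrArg (fun w => (v 1)⁻¹ • w) (form v hv)
        rw [h5, vec8, smul_add, smul_smul, smul_smul, inv_mul_cancel₀ hv1, zero_smul, add_zero,
          hc, div_eq_inv_mul]
      rw [h4]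
      exact L.smul_mem _ hv
    refine ⟨c, le_antisymm ?_ ?_⟩
    · intro v' hv'
      have h5 := form v' hv'
      have h6 : v' - v' 1 • (![c, 1, 0, 0, 0, 0, 0, 0] : Fin 8 → ℚ) =
          (v' 0 - v' 1 * c) • Pi.single 0 1 := by
        have h8 : v' - v' 1 • (![c, 1, 0, 0, 0, 0, 0, 0] : Fin 8 → ℚ) =
            (v' 0 • Pi.single 0 1 + v' 1 • Pi.single 1 1)
              - v' 1 • (![c, 1, 0, 0, 0, 0, 0, 0] : Fin 8 → ℚ) := by rw [← h5]
        rw [h8, vec8, zero_smul, add_zero, smul_add, smul_smul, smul_smul, mul_one, sub_smul]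
        abel
      have h7 : (v' 0 - v' 1 * c) = 0 := by
        by_contra h8
        apply h0
        have h9 : (Pi.single 0 1 : Fin 8 → ℚ) = (v' 0 - v' 1 * c)⁻¹ •
            (v' - v' 1 • (![c, 1, 0, 0, 0, 0, 0, 0] : Fin 8 → ℚ)) := by
          rw [h6, smul_smul, inv_mul_cancel₀ h8, one_smul]
        rw [h9]
        exact L.smul_mem _ (L.sub_mem hv' (L.smul_mem _ hw))
      rw [h7, zero_smul, sub_eq_zero] at h6
      rw [h6]
      exact Submodule.smul_mem _ _ (Submodule.mem_span_singleton_self _)
    · rw [Submodule.span_singleton_le_iff_mem]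
      exact hw
  · intro v hv h
    exact hL.ft ⟨v, hv, h⟩
  · intro v hv
    have h1 := hL.sD v hv
    rw [vec8, zero_smul, zero_smul, zero_add, zero_add]
    exact h1
  · intro v hv
    have h1 := hL.s6 v hv
    rw [vec8, zero_smul, zero_add, ← smul_add]
    exact h1
  · intro v hv
    have h1 := hL.s1 v hv
    rw [vec8]
    exact h1
  · -- coefficient vectors
    intro i n
    have h1 := hco i n
    rw [NT_iter_io] at h1
    set Q := NTt^[i] P with hQ
    by_cases hft : ∃ v ∈ L, v 6 ≠ 0 ∨ v 7 ≠ 0
    · obtain ⟨h6, -, -⟩ := hL.ft hft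
      have h2 : (fun j => (Q j).coeff n) = (fun j => (io Q j).coeff n) +
          ((Q 6).coeff n - (io Q 6).coeff n) • (Pi.single 6 1 : Fin 8 → ℚ) := by
        funext j
        rw [Pi.add_apply, Pi.smul_apply, smul_eq_mul]
        by_cases hj : j = 6
        · subst hj
          rw [Pi.single_eq_same]
          ring
        · rw [Pi.single_eq_of_ne hj, mul_zero, add_zero, io_ne hj]
      rw [h2]
      exact L.add_mem h1 (L.smul_mem _ h6)
    · push Not at hft
      have h6 : Q 6 = 0 := by
        have h3 : io Q 6 = 0 := by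
          ext m
          have h4 := hco i m
          rw [NT_iter_io] at h4
          exact (hft _ h4).1
        rw [io_six] at h3
        have h5 := dio_ne_zero 6
        rw [dio_six] at h5
        exact (mul_eq_zero.mp h3).resolve_left h5
      have h7 : io Q = Q := by
        funext j
        by_cases hj : j = 6
        · subst hj
          rw [io_six, h6, mul_zero]
        · exact io_ne hj Q
      rw [h7] at h1
      exact h1
  · have h1 : (fun i : Fin (Module.finrank ℚ L) => H200.NT^[(i : ℕ)] (io P)) =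
        io ∘ fun i : Fin (Module.finrank ℚ L) => NTt^[(i : ℕ)] P := by
      funext i
      exact NT_iter_io P i
    rw [h1] at hli
    exact LinearIndependent.of_comp io hli

end Vale.Agent.P030.H60
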