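import Vale.Agent.P030.H60.LogSer

/-!
# P030 (Catalan) / H60 : power series inside `LS k`, and `ℓ`
-/

namespace P030.H60

open Polynomial

namespace LS

variable {k : Type} [Field k]

/-- power series in `t` as elements of `LS k` -/
noncomputable def ofPS : PowerSeries k →+* LS k :=
  (HahnSeries.ofPowerSeries ℤ k[X] : PowerSeries k[X] →+* HahnSeries ℤ k[X]).comp
    (PowerSeries.map (C : k →+* k[X]))

theorem cf_ofPS_nat (f : PowerSeries k) (n : ℕ) :
    (ofPS f).cf (n : ℤ) = C (PowerSeries.coeff n f) := by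
  refine (HahnSeries.ofPowerSeries_apply_coeff (Γ := ℤ) (R := k[X]) _ n).trans ?_
  rw [PowerSeries.coeff_map]

theorem cf_ofPS_neg (f : PowerSeries k) {n : ℤ} (hn : n < 0) : (ofPS f).cf n = 0 := by
  refine HahnSeries.embDomain_notin_image_support (Γ := ℕ) (Γ' := ℤ) ?_
  rintro ⟨m, -, hm⟩
  have : (m : ℤ) = n := hm
  omega

theorem cf_ofPS (f : PowerSeries k) (n : ℤ) :
    (ofPS f).cf n = if 0 ≤ n then C (PowerSeries.coeff n.toNat f) else 0 := by
  by_cases h : 0 ≤ n
  · rw [if_pos h]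
    conv_lhs => rw [← Int.toNat_of_nonneg h]
    rw [cf_ofPS_nat]
  · rw [if_neg h, cf_ofPS_neg f (by omega)]

theorem LB_ofPS (f : PowerSeries k) : LB 0 (ofPS f) := fun _ hm => cf_ofPS_neg f hm

theorem ofPS_injective : Function.Injective (ofPS : PowerSeries k → LS k) := by
  intro f g h
  ext n
  have h1 : (ofPS f).cf (n : ℤ) = (ofPS g).cf (n : ℤ) := by rw [h]
  rw [cf_ofPS_nat, cf_ofPS_nat] at h1
  exact C_injective h1

theorem ofPS_C (a : k) : ofPS (PowerSeries.C a) = algebraMap k (LS k) a := by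
  ext1 n
  rw [algebraMap_eq, cf_sg, cf_ofPS, PowerSeries.coeff_C]
  by_cases h : n = 0
  · subst h; simp
  · rw [if_neg h]
    by_cases h2 : 0 ≤ n
    · rw [if_pos h2, if_neg (by omega), C_0]
    · rw [if_neg h2]

theorem ofPS_X : ofPS (PowerSeries.X : PowerSeries k) = sg 1 1 := by
  ext1 n
  rw [cf_sg, cf_ofPS, PowerSeries.coeff_X]
  by_cases h : n = 1
  · subst h; simp
  · rw [if_neg h]
    by_cases h2 : 0 ≤ n
    · rw [if_pos h2, if_neg (by omega), C_0]
    · rw [if_neg h2]

/-- `t d/dt` on power series -/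
noncomputable def psTh (f : PowerSeries k) : PowerSeries k :=
  PowerSeries.mk fun n => (n : k) * PowerSeries.coeff n f

theorem theta_ofPS (f : PowerSeries k) : theta (ofPS f) = ofPS (psTh f) := by
  ext1 n
  rw [theta_cf, cf_ofPS, cf_ofPS]
  by_cases h : 0 ≤ n
  · rw [if_pos h, if_pos h, derivative_C, add_zero, psTh, PowerSeries.coeff_mk, zsmul_eq_mul,
      C_mul]
    congr 1
    have h2 : ((n.toNat : ℕ) : k) = ((n : ℤ) : k) := by
      conv_rhs => rw [← Int.toNat_of_nonneg h]
      push_cast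
      rfl
    rw [h2]
    simp
  · rw [if_neg h, if_neg h]
    simp

/-- `ℓ = log t` -/
noncomputable def ell : LS k := sg 0 X

theorem theta_ell : theta (ell : LS k) = 1 := by
  ext1 n
  rw [theta_cf, ell, cf_sg, cf_one]
  by_cases h : n = 0
  · subst h; simp
  · rw [if_neg h, if_neg h]; simp

theorem cf_ell_mul (f : LS k) (n : ℤ) : (ell * f).cf n = X * f.cf n :=
  HahnSeries.coeff_single_zero_mul (Γ := ℤ) (R := k[X])

end LS

end P030.H60
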