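import Mathlib

/-!
# P030 (Catalan) / H60 : logarithmic Laurent series

`LS k` : Laurent series in a local parameter `t` with coefficients
polynomials in `ℓ = log t`.  `theta = t d/dt` with `theta ℓ = 1`.
-/

namespace P030.H60

open Polynomial

/-- Laurent series in `t` with coefficients polynomials in `ℓ = log t`. -/
def LS (k : Type) [Field k] : Type := HahnSeries ℤ k[X]

namespace LS

section basic

variable {k : Type} [Field k]

noncomputable instance : CommRing (LS k) := inferInstanceAs (CommRing (HahnSeries ℤ k[X]))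

instance : IsDomain (LS k) := inferInstanceAs (IsDomain (HahnSeries ℤ k[X]))

/-- The constant embedding. -/
noncomputable def cst : k →+* LS k :=
  RingHom.comp (HahnSeries.C : k[X] →+* HahnSeries ℤ k[X]) (C : k →+* k[X])

noncomputable instance : Algebra k (LS k) := RingHom.toAlgebra cst

/-- Coefficient of `t^n`. -/
def cf (f : LS k) (n : ℤ) : k[X] := HahnSeries.coeff f n

@[ext] theorem ext {f g : LS k} (h : ∀ n, f.cf n = g.cf n) : f = g :=
  HahnSeries.ext (funext h)

/-- The monomial `a t^n`. -/
noncomputable def sg (n : ℤ) (a : k[X]) : LS k := (HahnSeries.single n a : HahnSeries ℤ k[X])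

/-- Build an element from a coefficient function bounded below. -/
def mk (f : ℤ → k[X]) (hf : ∃ n₀, ∀ n < n₀, f n = 0) : LS k :=
  (⟨f, by
    obtain ⟨n₀, h⟩ := hf
    have hb : BddBelow (Function.support f) :=
      ⟨n₀, fun n hn => not_lt.mp fun hlt => hn (h n hlt)⟩
    exact hb.isWF.isPWO⟩ : HahnSeries ℤ k[X])

@[simp] theorem cf_mk (f : ℤ → k[X]) (hf : ∃ n₀, ∀ n < n₀, f n = 0) (n : ℤ) :
    (mk f hf).cf n = f n := rfl

@[simp] theorem cf_zero (n : ℤ) : (0 : LS k).cf n = 0 := rfl

@[simp] theorem cf_add (f g : LS k) (n : ℤ) : (f + g).cf n = f.cf n + g.cf n := rfl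

@[simp] theorem cf_sub (f g : LS k) (n : ℤ) : (f - g).cf n = f.cf n - g.cf n := rfl

@[simp] theorem cf_neg (f : LS k) (n : ℤ) : (-f).cf n = -f.cf n := rfl

@[simp] theorem cf_smul (a : k) (f : LS k) (n : ℤ) : (a • f).cf n = C a * f.cf n := by
  rw [Algebra.smul_def]
  exact HahnSeries.coeff_single_zero_mul (Γ := ℤ) (R := k[X])

theorem cf_sg (m : ℤ) (a : k[X]) (n : ℤ) : (sg m a).cf n = if n = m then a else 0 := by
  refine (HahnSeries.coeff_single (Γ := ℤ) (R := k[X])).trans ?_
  split_ifs <;> rfl

@[simp] theorem cf_sg_self (m : ℤ) (a : k[X]) : (sg m a).cf m = a :=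
  HahnSeries.coeff_single_same _ _

theorem cf_one (n : ℤ) : (1 : LS k).cf n = if n = 0 then 1 else 0 := by
  refine (HahnSeries.coeff_one (Γ := ℤ) (R := k[X])).trans ?_
  split_ifs <;> rfl

theorem sg_mul_sg (m n : ℤ) (a b : k[X]) : sg m a * sg n b = sg (m + n) (a * b) :=
  HahnSeries.single_mul_single

theorem sg_add (m : ℤ) (a b : k[X]) : sg m (a + b) = sg m a + sg m b := by
  ext1 n
  rw [cf_add, cf_sg, cf_sg, cf_sg]
  split_ifs <;> simp

theorem sg_zero_one : sg 0 (1 : k[X]) = 1 := HahnSeries.single_zero_one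

theorem algebraMap_eq (a : k) : algebraMap k (LS k) a = sg 0 (C a) := rfl

theorem cf_bdd (f : LS k) : ∃ n₀, ∀ n < n₀, f.cf n = 0 :=
  ⟨HahnSeries.order f, fun _ hn => HahnSeries.coeff_eq_zero_of_lt_order hn⟩

/-- The order in `t`. -/
noncomputable def ord (f : LS k) : ℤ := HahnSeries.order (Γ := ℤ) (R := k[X]) f

theorem cf_ord_ne {f : LS k} (hf : f ≠ 0) : f.cf f.ord ≠ 0 :=
  HahnSeries.coeff_order_eq_zero.not.mpr hf

theorem ord_mul {f g : LS k} (hf : f ≠ 0) (hg : g ≠ 0) : (f * g).ord = f.ord + g.ord :=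
  HahnSeries.order_mul hf hg

/-- `LB a f`: all coefficients of `f` below `a` vanish. -/
def LB (a : ℤ) (f : LS k) : Prop := ∀ m < a, f.cf m = 0

theorem LB_zero (a : ℤ) : LB a (0 : LS k) := fun _ _ => rfl

theorem LB.mono {a b : ℤ} {f : LS k} (h : LB a f) (hab : b ≤ a) : LB b f :=
  fun m hm => h m (lt_of_lt_of_le hm hab)

theorem LB_ord (f : LS k) : LB f.ord f := fun _ hm => HahnSeries.coeff_eq_zero_of_lt_order hm

theorem LB.le_ord {a : ℤ} {f : LS k} (h : LB a f) (hf : f ≠ 0) : a ≤ f.ord := by
  by_contra hlt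
  push Not at hlt
  exact cf_ord_ne hf (h _ hlt)

theorem LB.ord_eq {a : ℤ} {f : LS k} (h : LB a f) (hf : f.cf a ≠ 0) : f.ord = a := by
  have hf0 : f ≠ 0 := by
    rintro rfl
    exact hf rfl
  refine le_antisymm ?_ (h.le_ord hf0)
  by_contra hlt
  push Not at hlt
  exact hf (LB_ord f _ hlt)

theorem LB.add {a : ℤ} {f g : LS k} (hf : LB a f) (hg : LB a g) : LB a (f + g) := by
  intro m hm
  rw [cf_add, hf m hm, hg m hm, add_zero]

theorem LB.sub {a : ℤ} {f g : LS k} (hf : LB a f) (hg : LB a g) : LB a (f - g) := by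
  intro m hm
  rw [cf_sub, hf m hm, hg m hm, sub_zero]

theorem LB.neg {a : ℤ} {f : LS k} (hf : LB a f) : LB a (-f) := by
  intro m hm
  rw [cf_neg, hf m hm, neg_zero]

theorem LB.smul {a : ℤ} {f : LS k} (hf : LB a f) (c : k) : LB a (c • f) := by
  intro m hm
  rw [cf_smul, hf m hm, mul_zero]

theorem LB.sum {ι : Type*} {s : Finset ι} {a : ℤ} {f : ι → LS k} (h : ∀ i ∈ s, LB a (f i)) :
    LB a (∑ i ∈ s, f i) := by
  classical
  induction s using Finset.induction_on with
  | empty => simpa using LB_zero a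
  | insert i s hi ih =>
    rw [Finset.sum_insert hi]
    exact (h i (Finset.mem_insert_self i s)).add
      (ih fun j hj => h j (Finset.mem_insert_of_mem hj))

theorem cf_mul_of_LB {a b : ℤ} {f g : LS k} (hf : LB a f) (hg : LB b g) :
    (f * g).cf (a + b) = f.cf a * g.cf b := by
  change HahnSeries.coeff (HahnSeries.instMul.mul f g) (a + b) = _
  refine (HahnSeries.coeff_mul (Γ := ℤ) (R := k[X])).trans ?_
  by_cases h : f.cf a * g.cf b = 0
  · rw [h]
    refine Finset.sum_eq_zero fun ij hij => ?_
    rw [Finset.mem_antidiagonal] at hij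
    obtain ⟨hi, hj, hij⟩ := hij
    rcases lt_trichotomy ij.1 a with h1 | h1 | h1
    · exact mul_eq_zero_of_left (hf _ h1) _
    · have h2 : ij.2 = b := by omega
      rw [h1, h2]
      exact h
    · exact mul_eq_zero_of_right _ (hg _ (by omega))
  · have ha : f.cf a ≠ 0 := left_ne_zero_of_mul h
    have hb : g.cf b ≠ 0 := right_ne_zero_of_mul h
    rw [Finset.sum_eq_single (a, b)]
    · rfl
    · intro ij hij hne
      rw [Finset.mem_antidiagonal] at hij
      obtain ⟨hi, hj, hij⟩ := hij
      rcases lt_trichotomy ij.1 a with h1 | h1 | h1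
      · exact mul_eq_zero_of_left (hf _ h1) _
      · exact absurd (Prod.ext h1 (by change ij.2 = b; omega)) hne
      · exact mul_eq_zero_of_right _ (hg _ (by omega))
    · intro hn
      exact absurd (Finset.mem_antidiagonal.mpr ⟨ha, hb, rfl⟩) hn

theorem LB.mul {a b : ℤ} {f g : LS k} (hf : LB a f) (hg : LB b g) : LB (a + b) (f * g) := by
  intro m hm
  change HahnSeries.coeff (HahnSeries.instMul.mul f g) m = _
  refine (HahnSeries.coeff_mul (Γ := ℤ) (R := k[X])).trans ?_
  refine Finset.sum_eq_zero fun ij hij => ?_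
  rw [Finset.mem_antidiagonal] at hij
  obtain ⟨hi, hj, hij⟩ := hij
  rcases lt_or_ge ij.1 a with h1 | h1
  · exact mul_eq_zero_of_left (hf _ h1) _
  · exact mul_eq_zero_of_right _ (hg _ (by omega))

theorem LB_one : LB 0 (1 : LS k) := by
  intro m hm
  rw [cf_one, if_neg hm.ne]

theorem LB_sg (n : ℤ) (a : k[X]) : LB n (sg n a : LS k) := by
  intro m hm
  rw [cf_sg, if_neg hm.ne]

theorem LB.prod {ι : Type*} {s : Finset ι} {a : ι → ℤ} {f : ι → LS k}
    (h : ∀ i ∈ s, LB (a i) (f i)) : LB (∑ i ∈ s, a i) (∏ i ∈ s, f i) := by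
  classical
  induction s using Finset.induction_on with
  | empty => simpa using LB_one
  | insert i s hi ih =>
    rw [Finset.sum_insert hi, Finset.prod_insert hi]
    exact (h i (Finset.mem_insert_self i s)).mul
      (ih fun j hj => h j (Finset.mem_insert_of_mem hj))

/-! ### the derivation `theta` -/

/-- The underlying function of `theta`. -/
noncomputable def thetaFun (f : LS k) : LS k :=
  mk (fun n => n • f.cf n + derivative (f.cf n)) (by
    obtain ⟨n₀, h⟩ := f.cf_bdd
    exact ⟨n₀, fun n hn => by rw [h n hn]; simp⟩)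

theorem thetaFun_cf (f : LS k) (n : ℤ) :
    (thetaFun f).cf n = n • f.cf n + derivative (f.cf n) := rfl

theorem thetaFun_leibniz (f g : LS k) :
    thetaFun (f * g) = f * thetaFun g + thetaFun f * g := by
  ext1 n
  have hsf : HahnSeries.support (thetaFun f : HahnSeries ℤ k[X]) ⊆
      HahnSeries.support (f : HahnSeries ℤ k[X]) := by
    intro m hm hf
    have hf : f.cf m = 0 := hf
    refine hm ?_
    change (thetaFun f).cf m = 0
    rw [thetaFun_cf, hf]; simp
  have hsg : HahnSeries.support (thetaFun g : HahnSeries ℤ k[X]) ⊆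
      HahnSeries.support (g : HahnSeries ℤ k[X]) := by
    intro m hm hf
    have hf : g.cf m = 0 := hf
    refine hm ?_
    change (thetaFun g).cf m = 0
    rw [thetaFun_cf, hf]; simp
  rw [thetaFun_cf, cf_add]
  have e1 : (f * g).cf n = ∑ ij ∈ Finset.antidiagonal
      (HahnSeries.isPWO_support (f : HahnSeries ℤ k[X]))
      (HahnSeries.isPWO_support (g : HahnSeries ℤ k[X])) n, f.cf ij.1 * g.cf ij.2 :=
    HahnSeries.coeff_mul (Γ := ℤ) (R := k[X])
  have e2 : (f * thetaFun g).cf n = ∑ ij ∈ Finset.antidiagonal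
      (HahnSeries.isPWO_support (f : HahnSeries ℤ k[X]))
      (HahnSeries.isPWO_support (g : HahnSeries ℤ k[X])) n, f.cf ij.1 * (thetaFun g).cf ij.2 :=
    HahnSeries.coeff_mul_right' (Γ := ℤ) (R := k[X]) _ hsg
  have e3 : (thetaFun f * g).cf n = ∑ ij ∈ Finset.antidiagonal
      (HahnSeries.isPWO_support (f : HahnSeries ℤ k[X]))
      (HahnSeries.isPWO_support (g : HahnSeries ℤ k[X])) n, (thetaFun f).cf ij.1 * g.cf ij.2 :=
    HahnSeries.coeff_mul_left' (Γ := ℤ) (R := k[X]) _ hsf
  rw [e1, e2, e3, Finset.smul_sum, derivative_sum,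
    ← Finset.sum_add_distrib, ← Finset.sum_add_distrib]
  refine Finset.sum_congr rfl fun ij hij => ?_
  rw [Finset.mem_antidiagonal] at hij
  obtain ⟨-, -, h⟩ := hij
  rw [thetaFun_cf, thetaFun_cf, derivative_mul, ← h]
  simp only [zsmul_eq_mul]
  push_cast
  ring

/-- `t d/dt`, with `theta ℓ = 1`. -/
noncomputable def theta : Derivation k (LS k) (LS k) :=
  Derivation.mk'
    { toFun := thetaFun
      map_add' := by
        intro f g
        ext1 n
        simp only [thetaFun_cf, cf_add, smul_add, derivative_add]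
        ring
      map_smul' := by
        intro c f
        ext1 n
        simp only [thetaFun_cf, cf_smul, derivative_C_mul, RingHom.id_apply, mul_add,
          zsmul_eq_mul]
        ring }
    (by
      intro f g
      change thetaFun (f * g) = f • thetaFun g + g • thetaFun f
      rw [thetaFun_leibniz, smul_eq_mul, smul_eq_mul, mul_comm g])

theorem theta_cf (f : LS k) (n : ℤ) :
    (theta f).cf n = n • f.cf n + derivative (f.cf n) := rfl

theorem LB.theta {a : ℤ} {f : LS k} (h : LB a f) : LB a (theta f) := by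
  intro m hm
  rw [theta_cf, h m hm]
  simp

end basic

section consts

variable {k : Type} [Field k] [CharZero k]

/-! ### constants -/

theorem poly_coeff_aux (p q : k[X]) (hpos : 0 < p.natDegree + q.natDegree) :
    (q * derivative p).coeff (p.natDegree + q.natDegree - 1)
        = p.natDegree * (p.leadingCoeff * q.leadingCoeff) := by
  rcases Nat.eq_zero_or_pos p.natDegree with h0 | h0
  · rw [h0]
    have h1 : derivative p = 0 := by
      rw [eq_C_of_natDegree_eq_zero h0, derivative_C]
    rw [h1]
    simp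
  · have hd : (derivative p).natDegree ≤ p.natDegree - 1 := natDegree_derivative_le p
    have h1 : p.natDegree + q.natDegree - 1 = q.natDegree + (p.natDegree - 1) := by omega
    rw [h1, coeff_mul_add_eq_of_natDegree_le le_rfl hd, coeff_derivative]
    have e2 : p.natDegree - 1 + 1 = p.natDegree := by omega
    rw [e2, coeff_natDegree, coeff_natDegree]
    have e3 : ((p.natDegree - 1 : ℕ) : k) + 1 = (p.natDegree : k) := by
      rw [Nat.cast_sub h0]; simp
    rw [e3]
    ring

theorem poly_natDegree_eq {p q : k[X]} (hp : p ≠ 0) (hq : q ≠ 0)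
    (h : q * derivative p = p * derivative q) : p.natDegree = q.natDegree := by
  have h1 : (q * derivative p).coeff (p.natDegree + q.natDegree - 1) =
      (p * derivative q).coeff (p.natDegree + q.natDegree - 1) := by rw [h]
  by_contra hne
  have hpos : 0 < p.natDegree + q.natDegree := by omega
  have e2 := poly_coeff_aux q p (by omega)
  rw [add_comm q.natDegree] at e2
  rw [poly_coeff_aux p q hpos, e2, mul_comm q.leadingCoeff] at h1
  have h2 : p.leadingCoeff * q.leadingCoeff ≠ 0 :=
    mul_ne_zero (leadingCoeff_ne_zero.mpr hp) (leadingCoeff_ne_zero.mpr hq)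
  have h3 := mul_right_cancel₀ h2 h1
  exact hne (by exact_mod_cast h3)

/-- In characteristic zero, `q p' = p q'` forces proportionality. -/
theorem poly_const {p q : k[X]} (hq : q ≠ 0) (h : q * derivative p = p * derivative q) :
    ∃ c : k, p = C c * q := by
  by_cases hp : p = 0
  · exact ⟨0, by rw [hp, C_0, zero_mul]⟩
  refine ⟨p.leadingCoeff / q.leadingCoeff, ?_⟩
  by_contra hne
  set c := p.leadingCoeff / q.leadingCoeff with hc
  have hq' : q.leadingCoeff ≠ 0 := leadingCoeff_ne_zero.mpr hq
  have hdeg := poly_natDegree_eq hp hq h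
  have hr : p - C c * q ≠ 0 := sub_ne_zero.mpr hne
  have hrel : q * derivative (p - C c * q) = (p - C c * q) * derivative q := by
    rw [derivative_sub, derivative_C_mul, mul_sub, sub_mul, h]
    ring
  have hd2 := poly_natDegree_eq hr hq hrel
  have hco : (p - C c * q).coeff q.natDegree = 0 := by
    rw [coeff_sub, coeff_C_mul, ← hdeg, coeff_natDegree, hdeg, coeff_natDegree, hc,
      div_mul_cancel₀ _ hq', sub_self]
  rw [← hd2, coeff_natDegree, leadingCoeff_eq_zero] at hco
  exact hr hco

omit [CharZero k] in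
theorem wr_natDegree_lt {p q : k[X]} (hpos : 0 < p.natDegree + q.natDegree) :
    (p * derivative q - q * derivative p).natDegree < p.natDegree + q.natDegree := by
  have a : ∀ p q : k[X], 0 < p.natDegree + q.natDegree →
      (p * derivative q).natDegree < p.natDegree + q.natDegree := by
    intro p q hpos
    rcases Nat.eq_zero_or_pos q.natDegree with h0 | h0
    · have h1 : derivative q = 0 := by rw [eq_C_of_natDegree_eq_zero h0, derivative_C]
      rw [h1, mul_zero, natDegree_zero]
      omega
    · have h1 := natDegree_derivative_lt (p := q) (by omega)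
      have h2 := natDegree_mul_le (p := p) (q := derivative q)
      omega
  have a2 := a q p (by omega)
  rw [add_comm] at a2
  exact lt_of_le_of_lt (natDegree_sub_le _ _) (max_lt (a p q hpos) a2)

/-- leading term analysis of `d θc = c θd`. -/
theorem LS_lead {c d : LS k} (hc : c ≠ 0) (hd : d ≠ 0) (h : d * theta c = c * theta d) :
    c.ord = d.ord ∧ ∃ a : k, c.cf c.ord = C a * d.cf d.ord := by
  have h1 : (d * theta c).cf (c.ord + d.ord) = (c * theta d).cf (c.ord + d.ord) := by rw [h]
  rw [cf_mul_of_LB (LB_ord c) (LB_ord d).theta, add_comm c.ord,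
    cf_mul_of_LB (LB_ord d) (LB_ord c).theta, theta_cf, theta_cf] at h1
  have hc0 : c.cf c.ord ≠ 0 := cf_ord_ne hc
  have hd0 : d.cf d.ord ≠ 0 := cf_ord_ne hd
  set p := c.cf c.ord
  set q := d.cf d.ord
  have h2 : C ((c.ord - d.ord : ℤ) : k) * (p * q) = p * derivative q - q * derivative p := by
    simp only [zsmul_eq_mul] at h1
    simp only [Int.cast_sub, C_sub, map_intCast]
    linear_combination h1
  have h3 : c.ord = d.ord := by
    by_contra hne
    have hpq : p * q ≠ 0 := mul_ne_zero hc0 hd0
    have hz : ((c.ord - d.ord : ℤ) : k) ≠ 0 := by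
      exact_mod_cast sub_ne_zero.mpr hne
    have hdeg : (C ((c.ord - d.ord : ℤ) : k) * (p * q)).natDegree
        = p.natDegree + q.natDegree := by
      rw [natDegree_C_mul hz, natDegree_mul hc0 hd0]
    by_cases hpos : p.natDegree + q.natDegree = 0
    · have hp0 : p.natDegree = 0 := by omega
      have hq0 : q.natDegree = 0 := by omega
      have e1 : derivative p = 0 := by rw [eq_C_of_natDegree_eq_zero hp0, derivative_C]
      have e2 : derivative q = 0 := by rw [eq_C_of_natDegree_eq_zero hq0, derivative_C]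
      rw [e1, e2, mul_zero, mul_zero, sub_zero] at h2
      exact (mul_ne_zero (C_ne_zero.mpr hz) hpq) h2
    · have hlt := wr_natDegree_lt (p := p) (q := q) (by omega)
      rw [← h2, hdeg] at hlt
      exact lt_irrefl _ hlt
  refine ⟨h3, poly_const hd0 ?_⟩
  rw [h3, sub_self] at h2
  simp only [Int.cast_zero, C_0, zero_mul] at h2
  linear_combination h2

/-- The constants of the fraction field of `LS k` are `k`. -/
theorem LS_const {c d : LS k} (hd : d ≠ 0) (h : d * theta c = c * theta d) :
    ∃ a : k, c = a • d := by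
  by_cases hc : c = 0
  · exact ⟨0, by rw [hc, zero_smul]⟩
  obtain ⟨h1, a, ha⟩ := LS_lead hc hd h
  refine ⟨a, ?_⟩
  by_contra hne
  have hr : c - a • d ≠ 0 := sub_ne_zero.mpr hne
  have hrel : d * theta (c - a • d) = (c - a • d) * theta d := by
    rw [map_sub, Derivation.map_smul, mul_sub, sub_mul, h]
    simp only [Algebra.mul_smul_comm, Algebra.smul_mul_assoc]
  obtain ⟨h2, -⟩ := LS_lead hr hd hrel
  have h3 : (c - a • d).cf (c - a • d).ord = 0 := by
    rw [h2, cf_sub, cf_smul, ← ha, h1, sub_self]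
  exact cf_ord_ne hr h3

end consts

end LS

end P030.H60
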