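import Vale.Agent.P030.T.Frame

/-!
# P030 (Catalan) / H60 : a family of columns with trivial left kernel has a nonzero minor
-/

namespace P030.H60

open Vale.Agent.P030.T

section minor

variable {ι κ F : Type*} [Fintype ι] [DecidableEq ι] [Field F]

/-- If no nonzero row vector kills all columns in `S`, some `|ι|` different columns in `S` form an
invertible matrix. -/
theorem exists_minor (col : κ → ι → F) (S : Set κ)
    (h : ∀ v : ι → F, v ≠ 0 → ∃ c ∈ S, ∑ i, v i * col c i ≠ 0) :
    ∃ σ : ι → κ, Function.Injective σ ∧ (∀ i, σ i ∈ S) ∧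
      (Matrix.of fun r c => col (σ c) r).det ≠ 0 := by
  classical
  have hspan : Submodule.span F (col '' S) = ⊤ := by
    by_contra hne
    obtain ⟨f, hf, hle⟩ := Submodule.exists_le_ker_of_lt_top _ (lt_top_iff_ne_top.mpr hne)
    have hfv : ∀ w : ι → F, f w = ∑ i, f (Pi.single i 1) * w i := by
      intro w
      conv_lhs => rw [← Finset.univ_sum_single w]
      rw [map_sum]
      refine Finset.sum_congr rfl fun i _ => ?_
      have e1 : (Pi.single i (w i) : ι → F) = w i • Pi.single i 1 := by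
        rw [← Pi.single_smul, smul_eq_mul, mul_one]
      rw [e1, map_smul, smul_eq_mul, mul_comm]
    have hv : (fun i => f (Pi.single i 1)) ≠ 0 := by
      intro h0
      refine hf (LinearMap.ext fun w => ?_)
      rw [hfv, LinearMap.zero_apply]
      exact Finset.sum_eq_zero fun i _ => by rw [congrFun h0 i]; simp
    obtain ⟨c, hc, hne⟩ := h _ hv
    refine hne ?_
    rw [← hfv]
    exact hle (Submodule.subset_span ⟨c, hc, rfl⟩)
  obtain ⟨b, hb, hsp, hli⟩ := exists_linearIndependent F (col '' S)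
  rw [hspan] at hsp
  have hbf : b.Finite := hli.setFinite
  have : Fintype b := hbf.fintype
  let B : Module.Basis b F (ι → F) := Module.Basis.mk hli (by
    rw [Subtype.range_coe, hsp])
  have hcard : Fintype.card b = Fintype.card ι := by
    rw [← Module.finrank_eq_card_basis B, Module.finrank_fintype_fun_eq_card]
  let e : ι ≃ b := (Fintype.equivOfCardEq hcard).symm
  choose τ hτS hτ using fun x : b => hb x.2
  refine ⟨fun i => τ (e i), ?_, fun i => hτS _, ?_⟩
  · intro i j hij
    have hij : τ (e i) = τ (e j) := hij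
    have e1 : ((e i : b) : ι → F) = (e j : b) := by rw [← hτ, ← hτ, hij]
    exact e.injective (Subtype.ext e1)
  · have hli2 : LinearIndependent F fun i => col (τ (e i)) := by
      have e1 : (fun i => col (τ (e i))) = (fun x : b => (x : ι → F)) ∘ e := by
        funext i
        exact hτ (e i)
      rw [e1]
      exact hli.comp _ e.injective
    have hli3 : LinearIndependent F (Matrix.of fun r c => col (τ (e c)) r).col := hli2
    rw [Matrix.linearIndependent_cols_iff_isUnit, Matrix.isUnit_iff_isUnit_det] at hli3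
    exact hli3.ne_zero

end minor

/-- `StNV` from the triviality of the left kernel of the extended matrix. -/
theorem StNV_of_kernel (P : Par) (c0 : ℕ)
    (h : ∀ x : ℚ, ∃ s0 : ℕ, ∀ s, s0 ≤ s → ∀ v : Fin (P.D0 * s) × Fin 8 → ℚ, v ≠ 0 →
      ∃ c : Cl, c.2 < P.ht c.1 * s + c0 ∧
        ∑ r, v r * (ent0 (P.D0 * s) c.1 c.2 r.1 r.2 + x * ent1 (P.D0 * s) c.1 c.2 r.1 r.2) ≠ 0) :
    StNV P c0 := by
  intro x
  obtain ⟨s0, hs0⟩ := h x
  refine ⟨s0, fun s hs => ?_⟩
  obtain ⟨σ, hinj, hmem, hdet⟩ := exists_minor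
    (fun (c : Cl) (r : Fin (P.D0 * s) × Fin 8) =>
      ent0 (P.D0 * s) c.1 c.2 r.1 r.2 + x * ent1 (P.D0 * s) c.1 c.2 r.1 r.2)
    {c : Cl | c.2 < P.ht c.1 * s + c0} (by
      intro v hv
      obtain ⟨c, hc, hne⟩ := hs0 s hs v hv
      exact ⟨c, hc, hne⟩)
  exact ⟨σ, ⟨hinj, hmem⟩, hdet⟩

end P030.H60
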