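import Vale.Agent.P030.H60.ZeroEst3

/-!
# P030 (Catalan) / H60 : the abstract zero estimate

`zeroEst`: for a polynomial system `q g' = A g` with singularities at `0, 1, -1, ∞` only, a
vector `P` of polynomials whose iterates `P, NT P, …, NT^r P` are dependent, and `r` flat
functionals at each cusp with values at `P` independent over the constants, the sum of all orders
of these values is at most `r (r - 1)`.
-/

namespace P030.H60

open Polynomial

section module

set_option linter.unusedSectionVars false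

variable {k : Type} [Field k] {ι : Type} [Fintype ι]

/-- the operator `q d/du + A` on polynomial row vectors -/
noncomputable def NT (A : Matrix ι ι k[X]) (P : ι → k[X]) : ι → k[X] :=
  fun j => qq k * derivative (P j) + ∑ i, P i * A i j

/-- flat functional at the cusp `c` -/
def Flat (c : Cusp) (A : Matrix ι ι k[X]) (g : ι → LS k) : Prop :=
  ∀ i, thC c (g i) = ∑ j, emb c (A i j) * g j

/-- value of a functional -/
noncomputable def ev (c : Cusp) (g : ι → LS k) (P : ι → k[X]) : LS k := ∑ i, emb c (P i) * g i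

theorem ev_add (c : Cusp) (g : ι → LS k) (P Q : ι → k[X]) :
    ev c g (P + Q) = ev c g P + ev c g Q := by
  simp only [ev, Pi.add_apply, map_add, add_mul, Finset.sum_add_distrib]

theorem ev_smul (c : Cusp) (g : ι → LS k) (p : k[X]) (P : ι → k[X]) :
    ev c g (p • P) = emb c p * ev c g P := by
  simp only [ev, Pi.smul_apply, smul_eq_mul, map_mul, Finset.mul_sum, mul_assoc]

theorem ev_zero (c : Cusp) (g : ι → LS k) : ev c g 0 = 0 := by
  simp [ev]

theorem ev_sum (c : Cusp) (g : ι → LS k) {κ : Type*} (s : Finset κ) (P : κ → ι → k[X]) :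
    ev c g (∑ a ∈ s, P a) = ∑ a ∈ s, ev c g (P a) := by
  classical
  induction s using Finset.induction_on with
  | empty => simp [ev_zero]
  | insert a s ha ih => rw [Finset.sum_insert ha, Finset.sum_insert ha, ev_add, ih]

theorem thC_ev (c : Cusp) {A : Matrix ι ι k[X]} {g : ι → LS k} (hg : Flat c A g)
    (P : ι → k[X]) : thC c (ev c g P) = ev c g (NT A P) := by
  simp only [ev, NT]
  rw [map_sum]
  have h1 : ∀ i, thC c (emb c (P i) * g i) =
      emb c (qq k * derivative (P i)) * g i + ∑ j, emb c (P i * A i j) * g j := by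
    intro i
    rw [Derivation.leibniz, thC_emb, hg i, smul_eq_mul, smul_eq_mul, Finset.mul_sum, add_comm,
      mul_comm (g i)]
    congr 1
    refine Finset.sum_congr rfl fun j _ => ?_
    rw [map_mul, mul_assoc]
  rw [Finset.sum_congr rfl fun i _ => h1 i, Finset.sum_add_distrib, Finset.sum_comm,
    ← Finset.sum_add_distrib]
  refine Finset.sum_congr rfl fun j _ => ?_
  rw [map_add, add_mul, map_sum, Finset.sum_mul]

theorem thC_ev_iter (c : Cusp) {A : Matrix ι ι k[X]} {g : ι → LS k} (hg : Flat c A g)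
    (P : ι → k[X]) (j : ℕ) : (thC c)^[j] (ev c g P) = ev c g ((NT A)^[j] P) := by
  induction j with
  | zero => rfl
  | succ j ih => rw [Function.iterate_succ_apply', Function.iterate_succ_apply', ih, thC_ev c hg]

theorem NT_add (A : Matrix ι ι k[X]) (P Q : ι → k[X]) : NT A (P + Q) = NT A P + NT A Q := by
  funext j
  simp only [NT, Pi.add_apply, derivative_add, add_mul, Finset.sum_add_distrib]
  ring

theorem NT_smul (A : Matrix ι ι k[X]) (p : k[X]) (P : ι → k[X]) :
    NT A (p • P) = (qq k * derivative p) • P + p • NT A P := by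
  funext j
  simp only [NT, Pi.add_apply, Pi.smul_apply, smul_eq_mul, derivative_mul, mul_add,
    Finset.mul_sum, mul_assoc]
  ring

theorem NT_zero (A : Matrix ι ι k[X]) : NT A 0 = 0 := by
  funext j
  simp [NT]

/-- saturation of a submodule of `k[u]^m` -/
def sat (S : Submodule k[X] (ι → k[X])) : Submodule k[X] (ι → k[X]) where
  carrier := {v | ∃ p : k[X], p ≠ 0 ∧ p • v ∈ S}
  zero_mem' := ⟨1, one_ne_zero, by rw [smul_zero]; exact S.zero_mem⟩
  add_mem' := by
    rintro v w ⟨p, hp, hv⟩ ⟨p', hp', hw⟩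
    refine ⟨p * p', mul_ne_zero hp hp', ?_⟩
    rw [smul_add]
    refine S.add_mem ?_ ?_
    · rw [mul_comm, mul_smul]
      exact S.smul_mem _ hv
    · rw [mul_smul]
      exact S.smul_mem _ hw
  smul_mem' := by
    rintro a v ⟨p, hp, hv⟩
    refine ⟨p, hp, ?_⟩
    rw [smul_comm]
    exact S.smul_mem _ hv

theorem mem_sat {S : Submodule k[X] (ι → k[X])} {v : ι → k[X]} :
    v ∈ sat S ↔ ∃ p : k[X], p ≠ 0 ∧ p • v ∈ S := Iff.rfl

theorem le_sat (S : Submodule k[X] (ι → k[X])) : S ≤ sat S :=
  fun v hv => ⟨1, one_ne_zero, by rw [one_smul]; exact hv⟩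

theorem sat_sat {S : Submodule k[X] (ι → k[X])} {v : ι → k[X]} {p : k[X]} (hp : p ≠ 0)
    (h : p • v ∈ sat S) : v ∈ sat S := by
  obtain ⟨p', hp', h'⟩ := h
  exact ⟨p' * p, mul_ne_zero hp' hp, by rw [mul_smul]; exact h'⟩

theorem NT_mem_sat {A : Matrix ι ι k[X]} {S : Submodule k[X] (ι → k[X])}
    (hS : ∀ v ∈ S, NT A v ∈ sat S) : ∀ v ∈ sat S, NT A v ∈ sat S := by
  rintro v ⟨p, hp, hv⟩
  refine sat_sat hp ?_
  have h1 : p • NT A v = NT A (p • v) - (qq k * derivative p) • v := by
    rw [NT_smul]; abel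
  rw [h1]
  exact (sat S).sub_mem (hS _ hv) ((sat S).smul_mem _ ⟨p, hp, hv⟩)

theorem NT_mem_span {A : Matrix ι ι k[X]} {κ : Type*} {z : κ → ι → k[X]}
    {T : Submodule k[X] (ι → k[X])} (hz : ∀ a, NT A (z a) ∈ T)
    (hT : Submodule.span k[X] (Set.range z) ≤ T) :
    ∀ v ∈ Submodule.span k[X] (Set.range z), NT A v ∈ T := by
  intro v hv
  induction hv using Submodule.span_induction with
  | mem v hv =>
    obtain ⟨a, rfl⟩ := hv
    exact hz a
  | zero => rw [NT_zero]; exact T.zero_mem
  | add v w _ _ hv hw => rw [NT_add]; exact T.add_mem hv hw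
  | smul a v hv' hv =>
    rw [NT_smul]
    exact T.add_mem (T.smul_mem _ (hT hv')) (T.smul_mem _ hv)

end module

section rank

variable {k : Type} [Field k] {ι : Type} [Fintype ι]

/-- the saturation of the span of `r` independent vectors is free of rank `r`. -/
theorem sat_basis {r : ℕ} {z : Fin r → ι → k[X]} (hz : LinearIndependent k[X] z) :
    Nonempty (Module.Basis (Fin r) k[X] (sat (Submodule.span k[X] (Set.range z)))) := by
  classical
  obtain ⟨n, ⟨w⟩⟩ := Submodule.nonempty_basis_of_pid (Pi.basisFun k[X] ι)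
    (sat (Submodule.span k[X] (Set.range z)))
  have h1 : r ≤ n := by
    have hli : LinearIndependent k[X] (fun i => (⟨z i, le_sat _ (Submodule.subset_span ⟨i, rfl⟩)⟩ :
        sat (Submodule.span k[X] (Set.range z)))) :=
      LinearIndependent.of_comp (Submodule.subtype _) hz
    have : Module.Finite k[X] (sat (Submodule.span k[X] (Set.range z))) :=
      Module.Finite.of_basis w
    have h2 := hli.fintype_card_le_finrank
    rwa [Module.finrank_eq_card_basis w, Fintype.card_fin, Fintype.card_fin] at h2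
  have h2 : n ≤ r := by
    choose p hp hmem using fun i : Fin n => (w i).2
    have hv : LinearIndependent k[X] (fun i => p i • (w i : ι → k[X])) := by
      rw [Fintype.linearIndependent_iff]
      intro c hc i
      have e1 : ∑ i, (c i * p i) • w i = 0 := by
        apply Subtype.ext
        rw [AddSubmonoidClass.coe_finsetSum]
        rw [ZeroMemClass.coe_zero, ← hc]
        refine Finset.sum_congr rfl fun i _ => ?_
        rw [Submodule.coe_smul, mul_smul]
      have e2 := Fintype.linearIndependent_iff.mp w.linearIndependent _ e1 i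
      exact (mul_eq_zero.mp e2).resolve_right (hp i)
    have h3 := linearIndependent_le_span_aux' _ hv (Set.range z) (by
      rintro _ ⟨i, rfl⟩
      exact hmem i)
    rwa [Fintype.card_fin, Set.card_range_of_injective hz.injective, Fintype.card_fin] at h3
  have h3 : n = r := le_antisymm h2 h1
  subst h3
  exact ⟨w⟩

end rank

section main

variable {k : Type} [Field k] [CharZero k] {ι : Type} [Fintype ι]

theorem constField_thC (c : Cusp) : ConstField (thC c : Derivation k (LS k) (LS k)) := by
  intro f g hg h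
  refine LS.LS_const hg ?_
  have hs : (sC c : LS k) ≠ 0 := by
    intro h0
    have h1 := cf_sC (k := k) c
    rw [h0, LS.cf_zero] at h1
    have h2 : (lC c : k) ≠ 0 := by cases c <;> simp [lC]
    exact h2 (C_eq_zero.mp h1.symm)
  rw [thC_apply, thC_apply] at h
  exact mul_left_cancel₀ hs (by linear_combination h)

/-- independent values force the iterates of `P` to be independent -/
theorem iter_indep (c : Cusp) {A : Matrix ι ι k[X]} {P : ι → k[X]} {r : ℕ}
    {g : Fin r → ι → LS k} (hg : ∀ i, Flat c A (g i))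
    (hy : LinearIndependent k fun i => ev c (g i) P) :
    LinearIndependent k[X] fun j : Fin r => (NT A)^[(j : ℕ)] P := by
  rw [Fintype.linearIndependent_iff]
  intro p hp
  by_contra hne
  push Not at hne
  obtain ⟨j₀, hj₀⟩ := hne
  refine wr_det_ne_zero _ (constField_thC c) _ hy ?_
  rw [← Matrix.exists_mulVec_eq_zero_iff]
  refine ⟨fun j => emb c (p j), fun h0 => emb_ne_zero c hj₀ (congrFun h0 j₀), ?_⟩
  funext i
  have h1 : ev c (g i) (∑ j, p j • (NT A)^[(j : ℕ)] P) = 0 := by rw [hp, ev_zero]
  rw [ev_sum] at h1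
  rw [Pi.zero_apply, ← h1]
  simp only [Matrix.mulVec, dotProduct, Matrix.of_apply]
  refine Finset.sum_congr rfl fun j _ => ?_
  rw [ev_smul, thC_ev_iter c (hg i), mul_comm]

/-- dependent iterates force dependent values -/
theorem values_dep (c : Cusp) {A : Matrix ι ι k[X]} {P : ι → k[X]} {r : ℕ}
    (h : ¬ LinearIndependent k[X] fun j : Fin r => (NT A)^[(j : ℕ)] P)
    {g : Fin r → ι → LS k} (hg : ∀ i, Flat c A (g i)) :
    ¬ LinearIndependent k fun i => ev c (g i) P :=
  fun h' => h (iter_indep c hg h')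

/-- **The zero estimate.** -/
theorem zeroEst (A : Matrix ι ι k[X]) (P : ι → k[X]) (r : ℕ)
    (h1 : ¬ LinearIndependent k[X] fun j : Fin (r + 1) => (NT A)^[(j : ℕ)] P)
    (g : Cusp → Fin r → ι → LS k) (hg : ∀ c i, Flat c A (g c i))
    (h2 : ∀ c, LinearIndependent k fun i => ev c (g c i) P) :
    ∑ c, ∑ i, (ev c (g c i) P).ord ≤ (r : ℤ) * (r - 1) := by
  classical
  set z : ℕ → ι → k[X] := fun j => (NT A)^[j] P with hz
  have hzi : LinearIndependent k[X] fun j : Fin r => z j := iter_indep .zero (hg .zero) (h2 .zero)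
  set S := Submodule.span k[X] (Set.range fun j : Fin r => z j) with hS
  -- `z r` is in the saturation
  have hzr : z r ∈ sat S := by
    rw [Fintype.linearIndependent_iff] at h1
    push Not at h1
    obtain ⟨p, hp, j₀, hj₀⟩ := h1
    rw [Fin.sum_univ_castSucc] at hp
    have hpr : p (Fin.last r) ≠ 0 := by
      intro h0
      rw [h0, zero_smul, add_zero] at hp
      have e1 := Fintype.linearIndependent_iff.mp hzi (fun j => p j.castSucc) hp
      rcases Fin.eq_castSucc_or_eq_last j₀ with ⟨j, rfl⟩ | rfl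
      · exact hj₀ (e1 j)
      · exact hj₀ h0
    refine ⟨p (Fin.last r), hpr, ?_⟩
    have e1 : p (Fin.last r) • z r = -∑ j : Fin r, p j.castSucc • z j := by
      rw [eq_neg_iff_add_eq_zero, add_comm]
      exact hp
    rw [e1]
    exact S.neg_mem (S.sum_mem fun j _ => S.smul_mem _ (Submodule.subset_span ⟨j, rfl⟩))
  have hstab : ∀ v ∈ sat S, NT A v ∈ sat S := by
    refine NT_mem_sat (NT_mem_span ?_ (le_sat S))
    intro j
    have e1 : NT A (z j) = z (j + 1) := by
      simp only [hz, Function.iterate_succ_apply']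
    rw [e1]
    rcases Nat.lt_or_ge (j + 1 : ℕ) r with h | h
    · exact le_sat S (Submodule.subset_span ⟨⟨j + 1, h⟩, rfl⟩)
    · have e2 : (j : ℕ) + 1 = r := by have := j.2; omega
      rw [e2]
      exact hzr
  obtain ⟨w⟩ := sat_basis hzi
  -- coordinates
  set co : (v : ι → k[X]) → v ∈ sat S → Fin r → k[X] := fun v hv l => w.repr ⟨v, hv⟩ l with hco
  have hrepr : ∀ (v : ι → k[X]) (hv : v ∈ sat S), v = ∑ l, co v hv l • (w l : ι → k[X]) := by
    intro v hv
    have e1 := w.sum_repr ⟨v, hv⟩
    have e2 := congrArg (fun x : sat S => (x : ι → k[X])) e1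
    simp only [AddSubmonoidClass.coe_finsetSum, Submodule.coe_smul] at e2
    exact e2.symm
  set M : Matrix (Fin r) (Fin r) k[X] :=
    Matrix.of fun j l => co (NT A (w j)) (hstab _ (w j).2) l with hM
  have hzmem : ∀ j : Fin r, z j ∈ sat S := fun j => le_sat S (Submodule.subset_span ⟨j, rfl⟩)
  set G : Matrix (Fin r) (Fin r) k[X] := Matrix.of fun j l => co (z j) (hzmem j) l with hG
  set Y : Cusp → Matrix (Fin r) (Fin r) (LS k) :=
    fun c => Matrix.of fun j i => ev c (g c i) (w j) with hY
  -- derivative of `det Y`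
  have hYd : ∀ c, thC c (Y c).det = emb c M.trace * (Y c).det := by
    intro c
    have e1 := deriv_det_of_rows (thC c) (Y c) (M.map (emb c)) (by
      intro j i
      have e2 : Y c j i = ev c (g c i) (w j) := rfl
      rw [e2, thC_ev c (hg c i)]
      conv_lhs => rw [hrepr (NT A (w j)) (hstab _ (w j).2)]
      rw [ev_sum]
      refine Finset.sum_congr rfl fun l _ => ?_
      rw [ev_smul]
      rfl)
    rw [e1]
    congr 1
    simp only [Matrix.trace, Matrix.diag_apply, Matrix.map_apply, map_sum]
  -- the Wronskian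
  have hW : ∀ c, (Matrix.of fun i j : Fin r => ((thC c)^[(j : ℕ)]) (ev c (g c i) P)).det
      = emb c G.det * (Y c).det := by
    intro c
    have e1 : (Matrix.of fun i j : Fin r => ((thC c)^[(j : ℕ)]) (ev c (g c i) P))
        = (G.map (emb c) * Y c).transpose := by
      ext1 i j
      rw [Matrix.transpose_apply, Matrix.mul_apply, Matrix.of_apply, thC_ev_iter c (hg c i)]
      conv_lhs => rw [show (NT A)^[(j : ℕ)] P = z j from rfl, hrepr (z j) (hzmem j)]
      rw [ev_sum]
      refine Finset.sum_congr rfl fun l _ => ?_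
      rw [ev_smul]
      rfl
    rw [e1, Matrix.det_transpose, Matrix.det_mul]
    congr 1
    exact ((emb c).toRingHom.map_det G).symm
  have hWne : ∀ c, (Matrix.of fun i j : Fin r => ((thC c)^[(j : ℕ)]) (ev c (g c i) P)).det ≠ 0 :=
    fun c => wr_det_ne_zero _ (constField_thC c) _ (h2 c)
  have hYne : ∀ c, (Y c).det ≠ 0 := by
    intro c h0
    exact hWne c (by rw [hW, h0, mul_zero])
  have hGne : G.det ≠ 0 := by
    intro h0
    exact hWne .zero (by rw [hW, h0, map_zero, zero_mul])
  have hF : ∑ c, ((Y c).det).ord = 0 := fuchs _ hYne hYd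
  have hGs : ∑ c, (emb c G.det).ord ≤ 0 := sum_ord_emb_le _ _ hGne le_rfl
  have hle : ∀ c, ∑ i, (ev c (g c i) P).ord + eC c * ∑ j : Fin r, (j : ℤ)
      ≤ (emb c G.det).ord + ((Y c).det).ord := by
    intro c
    rw [← LS.ord_mul (emb_ne_zero c hGne) (hYne c), ← hW c]
    exact (LB_wr c _ _ fun i => LS.LB_ord _).le_ord (hWne c)
  have hsum := Finset.sum_le_sum fun c (_ : c ∈ Finset.univ) => hle c
  rw [Finset.sum_add_distrib, Finset.sum_add_distrib, hF, ← Finset.sum_mul] at hsum
  have he : ∑ c, eC c = -2 := by rw [sum_cusp]; rfl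
  have hr : 2 * ∑ j : Fin r, (j : ℤ) = (r : ℤ) * (r - 1) := by
    have e1 : ∑ j : Fin r, (j : ℤ) = ∑ j ∈ Finset.range r, (j : ℤ) :=
      Fin.sum_univ_eq_sum_range (fun j => (j : ℤ)) r
    have e2 := Finset.sum_range_id_mul_two r
    have e3 : ((∑ j ∈ Finset.range r, j : ℕ) : ℤ) * 2 = ((r * (r - 1) : ℕ) : ℤ) := by
      exact_mod_cast e2
    rw [e1]
    push_cast at e3
    rcases Nat.eq_zero_or_pos r with h | h
    · subst h; simp
    · rw [Nat.cast_sub h] at e3
      push_cast at e3
      linarith
  rw [he] at hsum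
  linarith

end main

end P030.H60
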