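import Vale.Agent.P030.H60.LogSer

/-!
# P030 (Catalan) / H60 : Wronskians in a domain with a derivation

`wr_vec`: if `y : Fin n → R` is linearly independent over the constants, then
`∑ v i * D^j (y i) = 0` for all `j < n` forces `v = 0`.
-/

namespace P030.H60

open Polynomial

section wronskian

variable {k R : Type} [Field k] [CommRing R] [IsDomain R] [Algebra k R] (D : Derivation k R R)

/-- The constants of the fraction field are `k`. -/
def ConstField : Prop := ∀ c d : R, d ≠ 0 → d * D c = c * D d → ∃ a : k, c = a • d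

theorem wr_vec (hD : ConstField D) : ∀ (n : ℕ) (y : Fin n → R), LinearIndependent k y →
    ∀ v : Fin n → R, (∀ j < n, ∑ i, v i * (D^[j]) (y i) = 0) → v = 0 := by
  intro n
  induction n with
  | zero =>
    intro y _ v _
    exact Subsingleton.elim _ _
  | succ n ih =>
    intro y hy v hv
    by_contra hne
    obtain ⟨i₀, hi₀⟩ := Function.ne_iff.mp hne
    have hi₀ : v i₀ ≠ 0 := hi₀
    -- differentiate the relations
    have h1 : ∀ j < n, ∑ i, D (v i) * (D^[j]) (y i) = 0 := by
      intro j hj
      have e1 : D (∑ i, v i * (D^[j]) (y i)) = 0 := by rw [hv j (by omega), map_zero]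
      rw [map_sum] at e1
      have e2 := hv (j + 1) (by omega)
      have e3 : ∀ i, D (v i * (D^[j]) (y i)) = v i * (D^[j + 1]) (y i) + D (v i) * (D^[j]) (y i) := by
        intro i
        rw [Derivation.leibniz, Function.iterate_succ_apply', smul_eq_mul, smul_eq_mul,
          mul_comm (D (v i))]
      rw [Finset.sum_congr rfl fun i _ => e3 i, Finset.sum_add_distrib, e2, zero_add] at e1
      exact e1
    set w : Fin (n + 1) → R := fun i => v i₀ * D (v i) - v i * D (v i₀) with hw
    have hw0 : w i₀ = 0 := by simp [hw]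
    have h2 : ∀ j < n, ∑ i, w i * (D^[j]) (y i) = 0 := by
      intro j hj
      have e1 : ∀ i, w i * (D^[j]) (y i) =
          v i₀ * (D (v i) * (D^[j]) (y i)) - D (v i₀) * (v i * (D^[j]) (y i)) := by
        intro i
        simp only [hw]
        ring
      rw [Finset.sum_congr rfl fun i _ => e1 i, Finset.sum_sub_distrib, ← Finset.mul_sum,
        ← Finset.mul_sum, h1 j hj, hv j (by omega), mul_zero, mul_zero, sub_zero]
    have h3 : (fun i : Fin n => w (i₀.succAbove i)) = 0 := by
      refine ih (fun i => y (i₀.succAbove i)) ?_ _ ?_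
      · exact hy.comp _ Fin.succAbove_right_injective
      · intro j hj
        have e1 := h2 j hj
        rw [Fin.sum_univ_succAbove _ i₀, hw0, zero_mul, zero_add] at e1
        exact e1
    have h4 : ∀ i, w i = 0 := by
      intro i
      rcases eq_or_ne i i₀ with h | h
      · rw [h, hw0]
      · obtain ⟨j, rfl⟩ := Fin.exists_succAbove_eq h
        exact congrFun h3 j
    have h5 : ∀ i, ∃ a : k, v i = a • v i₀ := by
      intro i
      refine hD (v i) (v i₀) hi₀ ?_
      exact sub_eq_zero.mp (h4 i)
    choose a ha using h5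
    have h6 : ∑ i, a i • y i = 0 := by
      have e1 := hv 0 (by omega)
      have e2 : ∀ i, v i * (D^[0]) (y i) = v i₀ * (a i • y i) := by
        intro i
        rw [Function.iterate_zero, id, ha i, Algebra.smul_def, Algebra.smul_def]
        ring
      rw [Finset.sum_congr rfl fun i _ => e2 i, ← Finset.mul_sum] at e1
      exact (mul_eq_zero.mp e1).resolve_left hi₀
    have h7 := Fintype.linearIndependent_iff.mp hy a h6 i₀
    have h8 := ha i₀
    rw [h7, zero_smul] at h8
    exact hi₀ h8

theorem wr_det_ne_zero (hD : ConstField D) {n : ℕ} (y : Fin n → R) (hy : LinearIndependent k y) :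
    (Matrix.of fun i j : Fin n => (D^[(j : ℕ)]) (y i)).det ≠ 0 := by
  intro h0
  obtain ⟨v, hv, h⟩ := Matrix.exists_vecMul_eq_zero_iff.mpr h0
  refine hv (wr_vec D hD n y hy v ?_)
  intro j hj
  have := congrFun h ⟨j, hj⟩
  simpa [Matrix.vecMul, dotProduct] using this

end wronskian

section detDeriv

variable {k R : Type} [Field k] [CommRing R] [Algebra k R] (D : Derivation k R R)

theorem deriv_prod {ι : Type} [DecidableEq ι] (s : Finset ι) (f : ι → R) :
    D (∏ i ∈ s, f i) = ∑ j ∈ s, ∏ i ∈ s, (if i = j then D (f i) else f i) := by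
  induction s using Finset.induction_on with
  | empty => simp
  | insert a s ha ih =>
    rw [Finset.prod_insert ha, Derivation.leibniz, ih, Finset.sum_insert ha, smul_eq_mul,
      smul_eq_mul, Finset.prod_insert ha, if_pos rfl, Finset.mul_sum, add_comm]
    congr 1
    · rw [mul_comm]
      congr 1
      refine Finset.prod_congr rfl fun i hi => ?_
      rw [if_neg]
      rintro rfl
      exact ha hi
    · refine Finset.sum_congr rfl fun j hj => ?_
      rw [Finset.prod_insert ha, if_neg]
      rintro rfl
      exact ha hj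

theorem deriv_det {n : ℕ} (Y : Matrix (Fin n) (Fin n) R) :
    D Y.det = ∑ j, (Y.updateRow j fun i => D (Y j i)).det := by
  simp only [Matrix.det_apply]
  rw [map_sum]
  have h1 : ∀ σ : Equiv.Perm (Fin n), D (Equiv.Perm.sign σ • ∏ i, Y (σ i) i)
      = ∑ j, Equiv.Perm.sign σ • ∏ i, (Y.updateRow j fun i => D (Y j i)) (σ i) i := by
    intro σ
    rw [← Finset.smul_sum]
    have e0 : D (Equiv.Perm.sign σ • ∏ i, Y (σ i) i) = Equiv.Perm.sign σ • D (∏ i, Y (σ i) i) := by
      rcases Int.units_eq_one_or (Equiv.Perm.sign σ) with h | h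
      · rw [h, one_smul, one_smul]
      · rw [h, Units.neg_smul, Units.neg_smul, one_smul, one_smul, map_neg]
    rw [e0, deriv_prod]
    congr 1
    rw [← Equiv.sum_comp σ fun j => ∏ i, (Y.updateRow j fun i => D (Y j i)) (σ i) i]
    refine Finset.sum_congr rfl fun j _ => Finset.prod_congr rfl fun i _ => ?_
    rw [Matrix.updateRow_apply]
    by_cases h : i = j
    · subst h
      rw [if_pos rfl, if_pos rfl]
    · rw [if_neg h, if_neg (fun h' => h (σ.injective h'))]
  rw [Finset.sum_congr rfl fun σ _ => h1 σ, Finset.sum_comm]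

theorem deriv_det_of_rows {n : ℕ} (Y M : Matrix (Fin n) (Fin n) R)
    (h : ∀ j i, D (Y j i) = ∑ l, M j l * Y l i) : D Y.det = M.trace * Y.det := by
  rw [deriv_det, Matrix.trace, Finset.sum_mul]
  refine Finset.sum_congr rfl fun j _ => ?_
  have e1 : (fun i => D (Y j i)) = ∑ l, M j l • Y l := by
    funext i
    rw [h, Finset.sum_apply]
    rfl
  rw [e1, Matrix.det_updateRow_sum, smul_eq_mul]
  rfl

end detDeriv

end P030.H60
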