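import Vale.Agent.P030.H60.ZeroEst1
import Vale.Agent.P030.H60.LogPS

/-!
# P030 (Catalan) / H60 : the four cusps 0, 1, -1, ∞ and the derivation `q d/du`

Local parameters: `t = u` at `0`, `t = (u-1)/(u+1)` at `1`, `t = (u+1)/(u-1)` at `-1`,
`t = 1/u` at `∞`.
-/

namespace P030.H60

open Polynomial

/-- The four cusps of `q = u(u+1)(u-1)`. -/
inductive Cusp | zero | one | neg | inf
  deriving DecidableEq

instance : Fintype Cusp where
  elems := {.zero, .one, .neg, .inf}
  complete := by
    intro x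
    cases x <;> simp

theorem sum_cusp {M : Type*} [AddCommMonoid M] (f : Cusp → M) :
    ∑ c, f c = f .zero + f .one + f .neg + f .inf := by
  have h : (Finset.univ : Finset Cusp) = {.zero, .one, .neg, .inf} := rfl
  rw [h, Finset.sum_insert (by simp), Finset.sum_insert (by simp), Finset.sum_insert (by simp),
    Finset.sum_singleton, add_assoc, add_assoc]

section cusp

variable {k : Type} [Field k]

/-- `q = u (u+1) (u-1)`. -/
noncomputable def qq (k : Type) [Field k] : k[X] := X * (X + 1) * (X - 1)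

/-- `1/(1-t)` -/
noncomputable def gC : LS k := LS.ofPS (PowerSeries.mk fun _ => 1)

theorem gC_mul : (1 - LS.sg 1 1) * gC = (1 : LS k) := by
  have h1 : (PowerSeries.mk fun _ => (1 : k)) * (1 - PowerSeries.X) = 1 :=
    PowerSeries.mk_one_mul_one_sub_eq_one k
  have h2 := congrArg (LS.ofPS (k := k)) h1
  rw [map_mul, map_sub, map_one, LS.ofPS_X] at h2
  rw [mul_comm]
  exact h2

/-- the function `u` in the local parameter -/
noncomputable def uC : Cusp → LS k
  | .zero => LS.sg 1 1
  | .one => (1 + LS.sg 1 1) * gC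
  | .neg => -((1 + LS.sg 1 1) * gC)
  | .inf => LS.sg (-1) 1

/-- the factor `s` with `q d/du = s θ` -/
noncomputable def sC : Cusp → LS k
  | .zero => LS.sg 1 1 * LS.sg 1 1 - 1
  | .one => 2 * uC .one
  | .neg => -(2 * uC .neg)
  | .inf => 1 - LS.sg (-1) 1 * LS.sg (-1) 1

/-- restriction of polynomials in `u` to the cusp -/
noncomputable def emb (c : Cusp) : k[X] →ₐ[k] LS k := aeval (uC c)

/-- `q d/du` in the local parameter -/
noncomputable def thC (c : Cusp) : Derivation k (LS k) (LS k) :=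
  (sC c : LS k) • (LS.theta : Derivation k (LS k) (LS k))

theorem thC_apply (c : Cusp) (f : LS k) : thC c f = sC c * LS.theta f := rfl

theorem emb_X (c : Cusp) : emb c (X : k[X]) = uC c := aeval_X _

theorem theta_sg (n : ℤ) : LS.theta (LS.sg n (1 : k[X])) = (n : LS k) * LS.sg n 1 := by
  have h1 : ((n : ℤ) : LS k) = LS.sg 0 (C (n : k)) := by
    rw [← LS.algebraMap_eq, map_intCast]
  rw [h1, LS.sg_mul_sg]
  ext1 m
  rw [LS.theta_cf, LS.cf_sg, LS.cf_sg, zero_add, mul_one]
  by_cases h : m = n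
  · rw [if_pos h, if_pos h, derivative_one, add_zero, h]
    simp
  · rw [if_neg h, if_neg h]
    simp

theorem theta_gC : LS.theta (gC : LS k) = LS.sg 1 1 * gC * gC := by
  have h1 := congrArg LS.theta (gC_mul (k := k))
  rw [Derivation.leibniz, Derivation.map_one_eq_zero, map_sub, Derivation.map_one_eq_zero,
    theta_sg, smul_eq_mul, smul_eq_mul] at h1
  push_cast at h1
  have h2 := gC_mul (k := k)
  have h3 : ((1 - LS.sg 1 1) * LS.theta gC) * (gC : LS k) = LS.sg 1 1 * gC * gC := by
    linear_combination gC * h1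
  calc LS.theta (gC : LS k) = ((1 - LS.sg 1 1) * gC) * LS.theta gC := by rw [h2, one_mul]
    _ = ((1 - LS.sg 1 1) * LS.theta gC) * (gC : LS k) := by ring
    _ = _ := h3

theorem theta_uC_one : LS.theta (uC .one : LS k) = 2 * (LS.sg 1 1 * gC * gC) := by
  rw [uC, Derivation.leibniz, theta_gC, map_add, Derivation.map_one_eq_zero, theta_sg,
    smul_eq_mul, smul_eq_mul]
  push_cast
  have h2 := gC_mul (k := k)
  linear_combination (-LS.sg 1 1 * gC) * h2

theorem thC_uC (c : Cusp) : thC c (uC c : LS k) = emb c (qq k) := by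
  have he : emb c (qq k) = uC c * (uC c + 1) * (uC c - 1) := by
    simp only [qq, map_mul, map_add, map_sub, map_one, emb_X]
  rw [he, thC_apply]
  cases c with
  | zero =>
    simp only [uC, sC, theta_sg]
    push_cast
    ring
  | one =>
    have h1 : (uC .one : LS k) + 1 = 2 * gC := by
      have h2 := gC_mul (k := k)
      rw [uC]
      linear_combination -h2
    have h3 : (uC .one : LS k) - 1 = 2 * (LS.sg 1 1 * gC) := by
      have h2 := gC_mul (k := k)
      rw [uC]
      linear_combination h2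
    rw [h1, h3, theta_uC_one, sC]
    ring
  | neg =>
    have h0 : (uC .neg : LS k) = -uC .one := rfl
    have h1 : (uC .neg : LS k) + 1 = -(2 * (LS.sg 1 1 * gC)) := by
      have h2 := gC_mul (k := k)
      rw [uC]
      linear_combination -h2
    have h3 : (uC .neg : LS k) - 1 = -(2 * gC) := by
      have h2 := gC_mul (k := k)
      rw [uC]
      linear_combination h2
    have h4 : LS.theta (uC .neg : LS k) = -(2 * (LS.sg 1 1 * gC * gC)) := by
      rw [h0, map_neg, theta_uC_one]
    rw [h1, h3, h4, sC]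
    ring
  | inf =>
    simp only [uC, sC, theta_sg]
    push_cast
    ring

theorem thC_emb (c : Cusp) (p : k[X]) :
    thC c (emb c p) = emb c (qq k * derivative p) := by
  induction p using Polynomial.induction_on' with
  | add p q hp hq => rw [map_add, map_add, hp, hq, derivative_add, mul_add, map_add]
  | monomial n a =>
    rw [← C_mul_X_pow_eq_monomial, map_mul, map_pow, emb_X, derivative_C_mul_X_pow]
    have h1 : emb c (C a : k[X]) = algebraMap k (LS k) a := aeval_C _ _
    rw [h1, Derivation.leibniz, Derivation.map_algebraMap, smul_zero, add_zero,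
      Derivation.leibniz_pow, thC_uC]
    simp only [map_mul, map_pow, emb_X, h1]
    have h2 : emb c (C (n : k) : k[X]) = (n : LS k) := by
      rw [emb, aeval_C, map_natCast]
    rw [h2]
    simp only [smul_eq_mul, nsmul_eq_mul]
    ring

/-- the amount by which `thC` lowers the order -/
def eC : Cusp → ℤ
  | .zero => 0
  | .one => 0
  | .neg => 0
  | .inf => -2

theorem LB_ofNat (n : ℕ) : LS.LB 0 ((n : LS k)) := by
  rw [← map_natCast (algebraMap k (LS k)), LS.algebraMap_eq]
  exact LS.LB_sg _ _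

theorem LB_uC_fin (c : Cusp) (hc : c ≠ .inf) : LS.LB 0 (uC c : LS k) := by
  have h1 : LS.LB 0 ((1 + LS.sg 1 1) * gC : LS k) := by
    have h2 : LS.LB 0 ((1 : LS k) + LS.sg 1 1) :=
      LS.LB_one.add ((LS.LB_sg _ _).mono (by norm_num))
    exact h2.mul (LS.LB_ofPS _)
  cases c with
  | zero => exact (LS.LB_sg _ _).mono (by norm_num)
  | one => exact h1
  | neg => exact h1.neg
  | inf => exact absurd rfl hc

theorem LB_two_mul {f : LS k} {a : ℤ} (h : LS.LB a f) : LS.LB a (2 * f) := by
  rw [two_mul]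
  exact h.add h

theorem LB_sC (c : Cusp) : LS.LB (eC c) (sC c : LS k) := by
  cases c with
  | zero =>
    refine LS.LB.sub ?_ LS.LB_one
    rw [LS.sg_mul_sg]
    exact (LS.LB_sg _ _).mono (by simp [eC])
  | one => exact LB_two_mul (LB_uC_fin .one (by simp))
  | neg => exact (LB_two_mul (LB_uC_fin .neg (by simp))).neg
  | inf =>
    refine LS.LB.sub (LS.LB_one.mono (by simp [eC])) ?_
    rw [LS.sg_mul_sg]
    exact (LS.LB_sg _ _)

/-- the leading coefficient of `sC` -/
def lC : Cusp → k
  | .zero => -1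
  | .one => 2
  | .neg => 2
  | .inf => -1

/-- the value of `u` at a finite cusp -/
def vC : Cusp → k
  | .zero => 0
  | .one => 1
  | .neg => -1
  | .inf => 0

theorem cf_uC_one : (uC .one : LS k).cf 0 = 1 := by
  have h2 : LS.LB 0 ((1 : LS k) + LS.sg 1 1) :=
    LS.LB_one.add ((LS.LB_sg _ _).mono (by norm_num))
  have h3 := LS.cf_mul_of_LB h2 (LS.LB_ofPS (PowerSeries.mk fun _ => (1 : k)))
  rw [add_zero] at h3
  have h4 : (LS.ofPS (PowerSeries.mk fun _ => (1 : k))).cf 0 = 1 := by
    rw [LS.cf_ofPS]; simp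
  rw [h4, mul_one, LS.cf_add, LS.cf_one, LS.cf_sg] at h3
  rw [uC, gC, h3]
  simp

theorem cf_uC_fin (c : Cusp) (hc : c ≠ .inf) : (uC c : LS k).cf 0 = C (vC c) := by
  cases c with
  | zero => simp [uC, vC, LS.cf_sg]
  | one => rw [cf_uC_one, vC, C_1]
  | neg =>
    have h0 : (uC .neg : LS k) = -uC .one := rfl
    rw [h0, LS.cf_neg, cf_uC_one, vC, C_neg, C_1]
  | inf => exact absurd rfl hc

theorem cf_sC (c : Cusp) : (sC c : LS k).cf (eC c) = C (lC c) := by
  have h3 : (C (2 : k) : k[X]) = 2 := map_ofNat C 2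
  cases c with
  | zero =>
    simp only [sC, eC, lC, LS.cf_sub, LS.sg_mul_sg, LS.cf_sg, LS.cf_one]
    simp
  | one =>
    rw [sC, eC, lC, two_mul, LS.cf_add, cf_uC_one, h3]
    norm_num
  | neg =>
    have h0 : (uC .neg : LS k) = -uC .one := rfl
    rw [sC, eC, lC, two_mul, LS.cf_neg, LS.cf_add, h0, LS.cf_neg, cf_uC_one, h3]
    norm_num
  | inf =>
    simp only [sC, eC, lC, LS.cf_sub, LS.sg_mul_sg, LS.cf_sg, LS.cf_one]
    simp

theorem LB_pow_zero {f : LS k} (hf : LS.LB 0 f) (n : ℕ) : LS.LB 0 (f ^ n) := by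
  induction n with
  | zero => rw [pow_zero]; exact LS.LB_one
  | succ n ih => rw [pow_succ]; simpa using ih.mul hf

theorem cf_pow_zero {f : LS k} (hf : LS.LB 0 f) (n : ℕ) : (f ^ n).cf 0 = (f.cf 0) ^ n := by
  induction n with
  | zero => rw [pow_zero, pow_zero, LS.cf_one, if_pos rfl]
  | succ n ih =>
    rw [pow_succ, pow_succ, ← ih]
    simpa using LS.cf_mul_of_LB (LB_pow_zero hf n) hf

theorem emb_C (c : Cusp) (a : k) : emb c (C a : k[X]) = LS.sg 0 (C a) := by
  rw [emb, aeval_C, LS.algebraMap_eq]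

theorem LB_emb_fin (c : Cusp) (hc : c ≠ .inf) (p : k[X]) : LS.LB 0 (emb c p) := by
  induction p using Polynomial.induction_on' with
  | add p q hp hq => rw [map_add]; exact hp.add hq
  | monomial n a =>
    rw [← C_mul_X_pow_eq_monomial, map_mul, map_pow, emb_X, emb_C]
    simpa using (LS.LB_sg 0 (C a)).mul (LB_pow_zero (LB_uC_fin c hc) n)

theorem cf_emb_fin (c : Cusp) (hc : c ≠ .inf) (p : k[X]) :
    (emb c p).cf 0 = C (p.eval (vC c)) := by
  induction p using Polynomial.induction_on' with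
  | add p q hp hq => rw [map_add, LS.cf_add, hp, hq, eval_add, C_add]
  | monomial n a =>
    rw [← C_mul_X_pow_eq_monomial, map_mul, map_pow, emb_X, emb_C]
    have h1 := LS.cf_mul_of_LB (LS.LB_sg 0 (C a)) (LB_pow_zero (LB_uC_fin c hc) n)
    rw [add_zero] at h1
    rw [h1, cf_pow_zero (LB_uC_fin c hc), cf_uC_fin c hc, LS.cf_sg_self, eval_mul, eval_C,
      eval_pow, eval_X, C_mul, C_pow]

theorem uC_inf_pow (n : ℕ) : (uC .inf : LS k) ^ n = LS.sg (-(n : ℤ)) 1 := by
  induction n with
  | zero => simp [LS.sg_zero_one]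
  | succ n ih =>
    rw [pow_succ, ih, uC, LS.sg_mul_sg, mul_one]
    congr 1
    push_cast
    ring

theorem cf_emb_inf (p : k[X]) (m : ℤ) :
    (emb .inf p).cf m = if m ≤ 0 then C (p.coeff m.natAbs) else 0 := by
  induction p using Polynomial.induction_on' with
  | add p q hp hq =>
    rw [map_add, LS.cf_add, hp, hq]
    split_ifs <;> simp
  | monomial n a =>
    rw [← C_mul_X_pow_eq_monomial, map_mul, map_pow, emb_X, emb_C, uC_inf_pow, LS.sg_mul_sg,
      zero_add, mul_one, LS.cf_sg, coeff_C_mul_X_pow]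
    by_cases h : m ≤ 0
    · rw [if_pos h]
      by_cases h2 : m = -(n : ℤ)
      · rw [if_pos h2, if_pos (by omega)]
      · rw [if_neg h2, if_neg (by omega), C_0]
    · rw [if_neg h, if_neg (by omega)]

theorem emb_inf_ord {p : k[X]} (hp : p ≠ 0) : (emb .inf p).ord = -(p.natDegree : ℤ) := by
  refine LS.LB.ord_eq ?_ ?_
  · intro m hm
    rw [cf_emb_inf]
    by_cases h : m ≤ 0
    · rw [if_pos h, coeff_eq_zero_of_natDegree_lt (by omega), C_0]
    · rw [if_neg h]
  · rw [cf_emb_inf, if_pos (by omega)]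
    have h1 : (-(p.natDegree : ℤ)).natAbs = p.natDegree := by omega
    rw [h1, coeff_natDegree]
    exact C_ne_zero.mpr (leadingCoeff_ne_zero.mpr hp)

theorem cf_uC_one_one : (uC .one : LS k).cf 1 = 2 := by
  have h1 : (uC .one : LS k) = 1 + 2 * (LS.sg 1 1 * gC) := by
    have h2 := gC_mul (k := k)
    rw [uC]
    linear_combination h2
  have h2 : (LS.sg 1 1 * gC : LS k).cf 1 = 1 := by
    have h3 := LS.cf_mul_of_LB (LS.LB_sg 1 (1 : k[X]))
      (LS.LB_ofPS (PowerSeries.mk fun _ => (1 : k)))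
    rw [add_zero, LS.cf_sg_self, LS.cf_ofPS] at h3
    rw [gC, h3]
    simp
  rw [h1, LS.cf_add, two_mul, LS.cf_add, h2, LS.cf_one]
  norm_num

/-- coefficient of `t` in `u - c` -/
noncomputable def dC : Cusp → k[X]
  | .zero => 1
  | .one => 2
  | .neg => -2
  | .inf => 1

theorem cf_emb_sub_one (c : Cusp) (hc : c ≠ .inf) :
    (emb c (X - C (vC c) : k[X])).cf 1 = dC c := by
  rw [map_sub, emb_X, emb_C, LS.cf_sub, LS.cf_sg, if_neg (by norm_num), sub_zero]
  cases c with
  | zero => simp [uC, dC]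
  | one => rw [cf_uC_one_one, dC]
  | neg =>
    have h0 : (uC .neg : LS k) = -uC .one := rfl
    rw [h0, LS.cf_neg, cf_uC_one_one, dC]
  | inf => exact absurd rfl hc

theorem dC_ne_zero [CharZero k] (c : Cusp) : (dC c : k[X]) ≠ 0 := by
  have h3 : (2 : k[X]) ≠ 0 := two_ne_zero
  cases c <;> simp [dC]

variable [CharZero k]

theorem emb_injective (c : Cusp) : Function.Injective (emb c : k[X] → LS k) := by
  rw [injective_iff_map_eq_zero]
  intro p hp
  by_contra hne
  by_cases hc : c = .inf
  · subst hc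
    have h1 : (emb .inf p).cf (-(p.natDegree : ℤ)) = 0 := by rw [hp]; rfl
    rw [cf_emb_inf, if_pos (by omega)] at h1
    have h2 : (-(p.natDegree : ℤ)).natAbs = p.natDegree := by omega
    rw [h2, coeff_natDegree, C_eq_zero, leadingCoeff_eq_zero] at h1
    exact hne h1
  · obtain ⟨q, hq, hnd⟩ := exists_eq_pow_rootMultiplicity_mul_and_not_dvd p hne (vC c)
    have h1 : emb c p = (emb c (X - C (vC c))) ^ (p.rootMultiplicity (vC c)) * emb c q := by
      rw [← map_pow, ← map_mul, ← hq]
    rw [hp] at h1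
    have h2 : emb c q ≠ 0 := by
      intro h0
      have h3 := cf_emb_fin c hc q
      rw [h0, LS.cf_zero] at h3
      have h4 : q.eval (vC c) = 0 := by
        rw [← C_eq_zero, ← h3]
      exact hnd (dvd_iff_isRoot.mpr h4)
    have h3 : emb c (X - C (vC c)) ≠ (0 : LS k) := by
      intro h0
      have h4 := cf_emb_sub_one c hc (k := k)
      rw [h0, LS.cf_zero] at h4
      exact dC_ne_zero c h4.symm
    exact (mul_ne_zero (pow_ne_zero _ h3) h2) h1.symm

theorem emb_ne_zero (c : Cusp) {p : k[X]} (hp : p ≠ 0) : emb c p ≠ 0 := by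
  intro h
  exact hp (emb_injective c (by rw [h, map_zero]))

end cusp

end P030.H60
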