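import Vale.Agent.P030.H60.ZeroEst2

/-!
# P030 (Catalan) / H60 : the Fuchs relation and order bounds
-/

namespace P030.H60

open Polynomial

section fuchs

variable {k : Type} [Field k] [CharZero k]

omit [CharZero k] in
/-- comparison of the top coefficients in `ℓ` -/
theorem lead_cmp {F : k[X]} (hF : F ≠ 0) {a b : k} {n : ℤ}
    (h : C a * (n • F + derivative F) = C b * F) : b = a * n := by
  have h1 : (C a * (n • F + derivative F)).coeff F.natDegree = (C b * F).coeff F.natDegree := by
    rw [h]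
  have h2 : (derivative F).coeff F.natDegree = 0 := by
    rw [coeff_derivative, coeff_eq_zero_of_natDegree_lt (by omega), zero_mul]
  rw [coeff_C_mul, coeff_C_mul, coeff_add, h2, add_zero, zsmul_eq_mul, ← map_intCast (C : k →+* k[X]),
    coeff_C_mul, coeff_natDegree, ← mul_assoc] at h1
  exact (mul_right_cancel₀ (leadingCoeff_ne_zero.mpr hF) h1).symm

omit [CharZero k] in
theorem lead_fin (c : Cusp) (hc : c ≠ .inf) {f : LS k} (hf : f ≠ 0) {b : k[X]}
    (h : thC c f = emb c b * f) : b.eval (vC c) = lC c * f.ord := by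
  have he : eC c = 0 := by
    cases c with
    | inf => exact absurd rfl hc
    | _ => rfl
  have h1 : (thC c f).cf (0 + f.ord) = (emb c b * f).cf (0 + f.ord) := by rw [h]
  rw [thC_apply, LS.cf_mul_of_LB (he ▸ LB_sC c) (LS.LB_ord f).theta,
    LS.cf_mul_of_LB (LB_emb_fin c hc b) (LS.LB_ord f), LS.theta_cf, cf_emb_fin c hc] at h1
  have h2 := cf_sC (k := k) c
  rw [he] at h2
  rw [h2] at h1
  exact lead_cmp (LS.cf_ord_ne hf) h1

omit [CharZero k] in
theorem lead_inf {f : LS k} (hf : f ≠ 0) {b : k[X]}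
    (h : thC .inf f = emb .inf b * f) : b.natDegree ≤ 2 ∧ b.coeff 2 = -1 * f.ord := by
  have hF := LS.cf_ord_ne hf
  have h0 : LS.LB (-2 + f.ord) (thC .inf f) := by
    rw [thC_apply]
    exact (LB_sC .inf).mul (LS.LB_ord f).theta
  have hd : b.natDegree ≤ 2 := by
    by_contra hlt
    push Not at hlt
    have hb : b ≠ 0 := by
      rintro rfl
      simp at hlt
    have e1 : LS.LB (-(b.natDegree : ℤ)) (emb .inf b) := by
      rw [← emb_inf_ord hb]
      exact LS.LB_ord _
    have e2 := LS.cf_mul_of_LB e1 (LS.LB_ord f)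
    rw [← h, h0 _ (by omega), cf_emb_inf, if_pos (by omega)] at e2
    have e3 : (-(b.natDegree : ℤ)).natAbs = b.natDegree := by omega
    rw [e3, coeff_natDegree] at e2
    exact (mul_ne_zero (C_ne_zero.mpr (leadingCoeff_ne_zero.mpr hb)) hF) e2.symm
  refine ⟨hd, ?_⟩
  have e1 : LS.LB (-2) (emb .inf b) := by
    intro m hm
    rw [cf_emb_inf, if_pos (by omega), coeff_eq_zero_of_natDegree_lt (by omega), C_0]
  have h1 : (thC .inf f).cf (-2 + f.ord) = (emb .inf b * f).cf (-2 + f.ord) := by rw [h]
  have e3 : LS.LB (-2) (sC .inf : LS k) := LB_sC .inf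
  rw [thC_apply, LS.cf_mul_of_LB e3 (LS.LB_ord f).theta,
    LS.cf_mul_of_LB e1 (LS.LB_ord f), LS.theta_cf, cf_emb_inf, if_pos (by omega)] at h1
  have h2 : (sC .inf : LS k).cf (-2) = C (-1) := cf_sC (k := k) .inf
  rw [h2] at h1
  exact lead_cmp hF h1

/-- **Fuchs relation**: nonzero solutions of `q f' = b f` at the four cusps. -/
theorem fuchs {b : k[X]} (f : Cusp → LS k) (hf : ∀ c, f c ≠ 0)
    (h : ∀ c, thC c (f c) = emb c b * f c) : ∑ c, (f c).ord = 0 := by
  have h0 := lead_fin .zero (by simp) (hf _) (h _)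
  have h1 := lead_fin .one (by simp) (hf _) (h _)
  have hm := lead_fin .neg (by simp) (hf _) (h _)
  obtain ⟨hd, h2⟩ := lead_inf (hf _) (h .inf)
  rw [eval_eq_sum_range' (n := 3) (by omega), Finset.sum_range_succ, Finset.sum_range_succ,
    Finset.sum_range_one] at h0 h1 hm
  simp only [vC, lC] at h0 h1 hm
  rw [sum_cusp]
  have h3 : (((f .zero).ord + (f .one).ord + (f .neg).ord + (f .inf).ord : ℤ) : k) = 0 := by
    have e2 : (2 : k) ≠ 0 := two_ne_zero
    push_cast
    have : (2 : k) * ((f .zero).ord + (f .one).ord + (f .neg).ord + (f .inf).ord) = 0 := by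
      linear_combination 2 * h0 - h1 - hm + 2 * h2
    exact (mul_eq_zero.mp this).resolve_left e2
  exact_mod_cast h3

end fuchs

section degree

variable {k : Type} [Field k] [CharZero k]

omit [CharZero k] in
theorem ord_emb_fin_zero (c : Cusp) (hc : c ≠ .inf) {p : k[X]} (hp : p.eval (vC c) ≠ 0) :
    (emb c p).ord = 0 := by
  refine (LB_emb_fin c hc p).ord_eq ?_
  rw [cf_emb_fin c hc]
  exact C_ne_zero.mpr hp

theorem ord_emb_self (c : Cusp) (hc : c ≠ .inf) : (emb c (X - C (vC c) : k[X])).ord = 1 := by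
  refine LS.LB.ord_eq ?_ (by rw [cf_emb_sub_one c hc]; exact dC_ne_zero c)
  intro m hm
  rcases lt_or_eq_of_le (Int.le_of_lt_add_one (by simpa using hm) : m ≤ 0) with h | h
  · exact LB_emb_fin c hc _ m h
  · subst h
    rw [cf_emb_fin c hc]
    simp

theorem vC_inj {c d : Cusp} (hc : c ≠ .inf) (hd : d ≠ .inf) (h : (vC c : k) = vC d) : c = d := by
  have h1 : (1 : k) ≠ -1 := by
    intro h
    have : (2 : k) = 0 := by linear_combination h
    exact two_ne_zero this
  cases c <;> cases d <;> simp_all [vC]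

/-- The total order of a polynomial at the four cusps is nonpositive. -/
theorem sum_ord_emb_le (n : ℕ) : ∀ p : k[X], p ≠ 0 → p.natDegree ≤ n →
    ∑ c, (emb c p).ord ≤ 0 := by
  induction n with
  | zero =>
    intro p hp hd
    have h1 : p = C (p.coeff 0) := eq_C_of_natDegree_le_zero hd
    have h2 : p.coeff 0 ≠ 0 := by
      intro h0
      rw [h0, C_0] at h1
      exact hp h1
    have h3 : ∀ c, c ≠ .inf → (emb c p).ord = 0 := by
      intro c hc
      refine ord_emb_fin_zero c hc ?_
      rw [h1, eval_C]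
      exact h2
    rw [sum_cusp, h3 _ (by simp), h3 _ (by simp), h3 _ (by simp), emb_inf_ord hp]
    omega
  | succ n ih =>
    intro p hp hd
    by_cases h : ∃ c : Cusp, c ≠ .inf ∧ p.eval (vC c) = 0
    · obtain ⟨c₀, hc₀, h0⟩ := h
      obtain ⟨p', hp'⟩ := dvd_iff_isRoot.mpr h0
      have hp0 : p' ≠ 0 := by
        rintro rfl
        rw [mul_zero] at hp'
        exact hp hp'
      have hX : (X - C (vC c₀) : k[X]) ≠ 0 := X_sub_C_ne_zero _
      have hdeg : p.natDegree = 1 + p'.natDegree := by
        rw [hp', natDegree_mul hX hp0, natDegree_X_sub_C]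
      have h1 := ih p' hp0 (by omega)
      have h2 : ∀ c, (emb c p).ord = (emb c (X - C (vC c₀) : k[X])).ord + (emb c p').ord := by
        intro c
        rw [hp', map_mul, LS.ord_mul (emb_ne_zero c hX) (emb_ne_zero c hp0)]
      have h3 : ∑ c, (emb c (X - C (vC c₀) : k[X])).ord = 0 := by
        have h4 : ∀ c, c ≠ .inf → (emb c (X - C (vC c₀) : k[X])).ord = if c = c₀ then 1 else 0 := by
          intro c hc
          by_cases h5 : c = c₀
          · rw [if_pos h5, h5]
            exact ord_emb_self c₀ hc₀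
          · rw [if_neg h5]
            refine ord_emb_fin_zero c hc ?_
            rw [eval_sub, eval_X, eval_C]
            intro h6
            exact h5 (vC_inj hc hc₀ (sub_eq_zero.mp h6))
        rw [sum_cusp, h4 _ (by simp), h4 _ (by simp), h4 _ (by simp), emb_inf_ord hX,
          natDegree_X_sub_C]
        cases c₀ with
        | inf => exact absurd rfl hc₀
        | _ => simp
      rw [Finset.sum_congr rfl fun c _ => h2 c, Finset.sum_add_distrib, h3, zero_add]
      exact h1
    · push Not at h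
      have h3 : ∀ c, c ≠ .inf → (emb c p).ord = 0 := fun c hc => ord_emb_fin_zero c hc (h c hc)
      rw [sum_cusp, h3 _ (by simp), h3 _ (by simp), h3 _ (by simp), emb_inf_ord hp]
      omega

end degree

section wrOrder

variable {k : Type} [Field k]

theorem LB_thC (c : Cusp) {a : ℤ} {f : LS k} (h : LS.LB a f) : LS.LB (eC c + a) (thC c f) := by
  rw [thC_apply]
  exact (LB_sC c).mul h.theta

theorem LB_thC_iter (c : Cusp) {a : ℤ} {f : LS k} (h : LS.LB a f) (j : ℕ) :
    LS.LB (a + eC c * j) ((thC c)^[j] f) := by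
  induction j with
  | zero => simpa using h
  | succ j ih =>
    rw [Function.iterate_succ_apply']
    refine (LB_thC c ih).mono (le_of_eq ?_)
    push_cast
    ring

/-- lower bound for the order of a Wronskian -/
theorem LB_wr (c : Cusp) {r : ℕ} (y : Fin r → LS k) (a : Fin r → ℤ) (h : ∀ i, LS.LB (a i) (y i)) :
    LS.LB (∑ i, a i + eC c * ∑ j : Fin r, (j : ℤ))
      (Matrix.of fun i j : Fin r => ((thC c)^[(j : ℕ)]) (y i)).det := by
  rw [Matrix.det_apply]
  refine LS.LB.sum fun σ _ => ?_
  have h1 : LS.LB (∑ j : Fin r, (a (σ j) + eC c * (j : ℤ)))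
      (∏ j, (Matrix.of fun i j : Fin r => ((thC c)^[(j : ℕ)]) (y i)) (σ j) j) := by
    refine LS.LB.prod fun j _ => ?_
    exact LB_thC_iter c (h _) _
  rw [Finset.sum_add_distrib, ← Finset.mul_sum, Equiv.sum_comp σ a] at h1
  rcases Int.units_eq_one_or (Equiv.Perm.sign σ) with h2 | h2
  · rw [h2, one_smul]
    exact h1
  · rw [h2, Units.neg_smul, one_smul]
    exact h1.neg

end wrOrder

end P030.H60
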